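import Crest.Agent.R292.Defs

/-! Row 292: initial segments, cylinders, and closure properties of reducibility by machines. -/

set_option autoImplicit false

namespace Crest.Agent.R292

open Filter Set

/-! ### Initial segments and cylinders -/

@[simp] lemma length_pre (x : X) (k : ℕ) : (pre x k).length = k := by simp [pre]

lemma getElem?_pre (x : X) (k n : ℕ) : (pre x k)[n]? = if n < k then some (x n) else none := by
  by_cases h : n < k
  · simp [pre, h]
  · simp [pre, h]

lemma getElem?_pre_of_lt {x : X} {k n : ℕ} (h : n < k) : (pre x k)[n]? = some (x n) := by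
  rw [getElem?_pre, if_pos h]

lemma getD_pre {x : X} {k n : ℕ} (h : n < k) (d : Bool) : (pre x k).getD n d = x n := by
  rw [List.getD_eq_getElem?_getD, getElem?_pre_of_lt h, Option.getD_some]

lemma pre_succ (x : X) (k : ℕ) : pre x (k + 1) = pre x k ++ [x k] := by
  simp [pre, List.range_succ]

@[simp] lemma pre_zero (x : X) : pre x 0 = [] := rfl

lemma take_pre (x : X) (k l : ℕ) : (pre x k).take l = pre x (min l k) := by
  simp [pre, ← List.map_take, List.take_range]

lemma pre_eq_iff {x y : X} {k : ℕ} : pre x k = pre y k ↔ ∀ i < k, x i = y i := by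
  simp [pre, List.map_inj_left]

lemma mem_cyl {x y : X} {k : ℕ} : y ∈ cyl x k ↔ ∀ i < k, y i = x i := Iff.rfl

lemma mem_cyl_iff_pre {x y : X} {k : ℕ} : y ∈ cyl x k ↔ pre y k = pre x k := pre_eq_iff.symm

lemma self_mem_cyl (x : X) (k : ℕ) : x ∈ cyl x k := fun _ _ => rfl

lemma cyl_mono (x : X) {k l : ℕ} (h : k ≤ l) : cyl x l ⊆ cyl x k :=
  fun _ hy i hi => hy i (lt_of_lt_of_le hi h)

lemma cyl_eq {x y : X} {k : ℕ} (h : y ∈ cyl x k) : cyl y k = cyl x k :=
  Set.ext fun _ => ⟨fun hz i hi => (hz i hi).trans (h i hi), fun hz i hi => (hz i hi).trans (h i hi).symm⟩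

lemma cyl_subset {x y : X} {k l : ℕ} (h : y ∈ cyl x k) (hl : k ≤ l) : cyl y l ⊆ cyl x k :=
  cyl_eq h ▸ cyl_mono y hl

lemma isOpen_cyl (x : X) (k : ℕ) : IsOpen (cyl x k) := by
  have : cyl x k = ⋂ i ∈ Finset.range k, (fun y : X => y i) ⁻¹' {x i} := by
    ext y
    simp [cyl]
  rw [this]
  exact isOpen_biInter_finset fun i _ => (isOpen_discrete _).preimage (continuous_apply i)

lemma exists_cyl_subset {U : Set X} (hU : IsOpen U) {x : X} (hx : x ∈ U) : ∃ k, cyl x k ⊆ U := by
  obtain ⟨I, u, h1, h2⟩ := isOpen_pi_iff.1 hU x hx
  refine ⟨I.sup id + 1, fun y hy => h2 fun i hi => ?_⟩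
  rw [hy i (Nat.lt_succ_of_le (Finset.le_sup (f := id) hi))]
  exact (h1 i hi).2

lemma not_isMeagre_cyl (x : X) (k : ℕ) : ¬ IsMeagre (cyl x k) :=
  not_isMeagre_of_isOpen (isOpen_cyl x k) ⟨x, self_mem_cyl x k⟩

/-- Every string is an initial segment of a real. -/
lemma pre_getD (s : List Bool) : pre (fun n => s.getD n false) s.length = s := by
  apply List.ext_getElem?
  intro n
  rw [getElem?_pre]
  by_cases h : n < s.length
  · simp [h]
  · simp [h]

/-- A non-meagre set stays non-meagre after intersection with a residual property. -/
lemma not_isMeagre_inter {α : Type} [TopologicalSpace α] {S : Set α} {P : α → Prop}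
    (hS : ¬ IsMeagre S) (hP : ∀ᶠ x in residual α, x ∈ S → P x) : ¬ IsMeagre {x | x ∈ S ∧ P x} := by
  intro h
  apply hS
  have h' : ∀ᶠ x in residual α, ¬ (x ∈ S ∧ P x) := h
  exact (h'.and hP).mono fun x hx hxS => hx.1 ⟨hxS, hx.2 hxS⟩

/-! ### Machines -/

lemma Lim.comp {f g : List Bool → List Bool} {A B C : X} (hf : Lim f B A) (hg : Lim g C B) :
    Lim (fun s => f (g s)) C A := by
  obtain ⟨m, hm, hf⟩ := hf
  obtain ⟨m', hm', hg⟩ := hg
  exact ⟨fun k => m (m' k), hm.comp hm', fun k => by simp only [hg, hf]⟩

lemma Lim.unique {f : List Bool → List Bool} {A A' B : X} (h : Lim f B A) (h' : Lim f B A') :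
    A = A' := by
  obtain ⟨m, hm, hf⟩ := h
  obtain ⟨m', -, hf'⟩ := h'
  funext n
  obtain ⟨k, hk⟩ := (hm.eventually_gt_atTop n).exists
  have e : pre A (m k) = pre A' (m' k) := (hf k).symm.trans (hf' k)
  have e' : m k = m' k := by simpa using congrArg List.length e
  rw [← e'] at e
  exact pre_eq_iff.1 e n hk

lemma lim_iff {f : List Bool → List Bool} {A B : X} : Lim f B A ↔
    (∀ k, f (pre B k) = pre A (f (pre B k)).length) ∧ ∀ n, ∃ K, ∀ k, K ≤ k → n ≤ (f (pre B k)).length := by
  constructor
  · rintro ⟨m, hm, hf⟩
    refine ⟨fun k => by rw [hf, length_pre], fun n => ?_⟩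
    obtain ⟨K, hK⟩ := eventually_atTop.1 (hm.eventually_ge_atTop n)
    exact ⟨K, fun k hk => by rw [hf, length_pre]; exact hK k hk⟩
  · rintro ⟨h1, h2⟩
    exact ⟨fun k => (f (pre B k)).length, tendsto_atTop.2 fun n => eventually_atTop.2 (h2 n), h1⟩

lemma countable_machines : {f : List Bool → List Bool | Computable f}.Countable := by
  have : Countable {f : List Bool → List Bool // Computable f} := by
    let φ : {f : List Bool → List Bool // Computable f} → {g : ℕ → ℕ // Computable g} := fun f =>
      ⟨fun n => Encodable.encode (f.1 ((Encodable.decode n).getD [])),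
        Computable.encode.comp (f.2.comp (Computable.decode.option_getD (Computable.const _)))⟩
    refine Function.Injective.countable (f := φ) fun f g h => Subtype.ext (funext fun s => ?_)
    have := congrFun (congrArg Subtype.val h) (Encodable.encode s)
    simpa [φ] using this
  exact this

section Uniform

variable {ι : Type} {A B C D E : ι → X}

lemma ULe.refl (A : ι → X) : ULe A A := ⟨id, Computable.id, fun _ => ⟨id, tendsto_id, fun _ => rfl⟩⟩

lemma ULe.trans (h : ULe A B) (h' : ULe B C) : ULe A C := by
  obtain ⟨f, hf, h⟩ := h
  obtain ⟨g, hg, h'⟩ := h'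
  exact ⟨fun s => f (g s), hf.comp hg, fun i => (h i).comp (h' i)⟩

lemma ULe.reindex {κ : Type} (h : ULe A B) (φ : κ → ι) : ULe (fun j => A (φ j)) fun j => B (φ j) := by
  obtain ⟨f, hf, h⟩ := h
  exact ⟨f, hf, fun j => h (φ j)⟩

lemma ULe.le (h : ULe A B) (i : ι) : Le (A i) (B i) := by
  obtain ⟨f, hf, h⟩ := h
  exact ⟨f, hf, h i⟩

lemma Le.ule {a b : X} (h : Le a b) : ULe (fun _ : ι => a) fun _ => b := by
  obtain ⟨f, hf, h⟩ := h
  exact ⟨f, hf, fun _ => h⟩

/-- The search over all initial segments. -/
def scan (h : List Bool → ℕ → Option Bool) (s : List Bool) (n K : ℕ) : Option Bool :=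
  Nat.rec none (fun k IH => Option.casesOn IH (h (s.take k) n) some) K

lemma scan_sound {h : List Bool → ℕ → Option Bool} {s : List Bool} {n K : ℕ} {v : Bool}
    (hv : scan h s n K = some v) : ∃ k, h (s.take k) n = some v := by
  induction K with
  | zero => simp [scan] at hv
  | succ K ih =>
    have e : scan h s n (K + 1) = Option.casesOn (scan h s n K) (h (s.take K) n) some := rfl
    rw [e] at hv
    cases hK : scan h s n K with
    | none => rw [hK] at hv; exact ⟨K, hv⟩
    | some w => rw [hK] at hv; exact ih (hK.trans hv)

lemma scan_isSome {h : List Bool → ℕ → Option Bool} {s : List Bool} {n K k : ℕ} (hk : k < K)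
    (hs : (h (s.take k) n).isSome) : (scan h s n K).isSome := by
  induction K with
  | zero => omega
  | succ K ih =>
    have e : scan h s n (K + 1) = Option.casesOn (scan h s n K) (h (s.take K) n) some := rfl
    rw [e]
    cases hK : scan h s n K with
    | none =>
      rcases Nat.lt_succ_iff_lt_or_eq.1 hk with h1 | rfl
      · have := ih h1
        rw [hK] at this
        exact absurd this (by simp)
      · exact hs
    | some w => rfl

/-- The longest list of defined values. -/
def gather (g : ℕ → Option Bool) (K : ℕ) : List Bool :=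
  Nat.rec [] (fun _ IH => Option.casesOn (g IH.length) IH fun v => IH ++ [v]) K

lemma gather_sound {g : ℕ → Option Bool} {a : X} (hg : ∀ n v, g n = some v → v = a n) (K : ℕ) :
    gather g K = pre a (gather g K).length := by
  induction K with
  | zero => rfl
  | succ K ih =>
    have e : gather g (K + 1) =
        Option.casesOn (g (gather g K).length) (gather g K) fun v => gather g K ++ [v] := rfl
    rw [e]
    cases hK : g (gather g K).length with
    | none => exact ih
    | some v =>
      simp only [List.length_append, List.length_singleton]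
      rw [pre_succ, ← ih, hg _ _ hK]

lemma gather_long {g : ℕ → Option Bool} {n : ℕ} (hg : ∀ i < n, (g i).isSome) (K : ℕ) :
    min n K ≤ (gather g K).length := by
  induction K with
  | zero => simp
  | succ K ih =>
    have e : gather g (K + 1) =
        Option.casesOn (g (gather g K).length) (gather g K) fun v => gather g K ++ [v] := rfl
    rw [e]
    cases hK : g (gather g K).length with
    | none =>
      have : ¬ (gather g K).length < n := fun h => by
        have := hg _ h
        rw [hK] at this
        exact absurd this (by simp)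
      simp only
      omega
    | some v =>
      simp only [List.length_append, List.length_singleton]
      omega

/-- A sound computable procedure that answers every question on some initial segment. -/
lemma ule_of_opt (h : List Bool → ℕ → Option Bool) (hc : Computable₂ h)
    (hs : ∀ i k n v, h (pre (B i) k) n = some v → v = A i n)
    (ht : ∀ i n, ∃ k, (h (pre (B i) k) n).isSome) : ULe A B := by
  have c1 : Computable₂ fun (s : List Bool) (n : ℕ) => scan h s n (s.length + 1) := by
    refine Computable.nat_rec (f := fun p : List Bool × ℕ => p.1.length + 1)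
      (g := fun _ => (none : Option Bool))
      (h := fun p q => Option.casesOn q.2 (h (p.1.take q.1) p.2) some)
      (Computable.succ.comp (Computable.list_length.comp Computable.fst)) (Computable.const _) ?_
    refine Computable.option_casesOn (Computable.snd.comp Computable.snd) ?_
      (Computable.option_some.comp Computable.snd).to₂
    exact hc.comp (Primrec.list_take.to_comp.comp (Computable.fst.comp Computable.snd)
      (Computable.fst.comp Computable.fst)) (Computable.snd.comp Computable.fst)
  refine ⟨fun s => gather (fun n => scan h s n (s.length + 1)) s.length, ?_, fun i => lim_iff.2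
    ⟨fun k => gather_sound (fun n v hv => ?_) _, fun n => ?_⟩⟩
  · refine Computable.nat_rec (f := fun s : List Bool => s.length) (g := fun _ => ([] : List Bool))
      (h := fun s q => Option.casesOn (scan h s q.2.length (s.length + 1)) q.2 fun v => q.2 ++ [v])
      Computable.list_length (Computable.const _) ?_
    refine Computable.option_casesOn (c1.comp Computable.fst
      (Computable.list_length.comp (Computable.snd.comp Computable.snd)))
      (Computable.snd.comp Computable.snd) ?_
    exact (Computable.list_concat.comp (Computable.snd.comp (Computable.snd.comp Computable.fst))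
      Computable.snd).to₂
  · obtain ⟨k', hk'⟩ := scan_sound hv
    rw [take_pre] at hk'
    exact hs _ _ _ _ hk'
  · choose κ hκ using ht i
    refine ⟨max n ((Finset.range n).sup κ), fun k hk => ?_⟩
    have := gather_long (g := fun n => scan h (pre (B i) k) n ((pre (B i) k).length + 1)) (n := n)
      (fun j hj => by
        have h1 : κ j ≤ k := le_trans (Finset.le_sup (f := κ) (Finset.mem_range.2 hj))
          (le_trans (le_max_right _ _) hk)
        refine scan_isSome (k := κ j) (by rw [length_pre]; omega) ?_
        rw [take_pre, min_eq_left h1]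
        exact hκ j) (pre (B i) k).length
    rw [length_pre, min_eq_left (le_trans (le_max_left _ _) hk)] at this
    simpa using this

/-- A computable procedure with a computable use bound. -/
lemma ule_of_use (h : List Bool → ℕ → Bool) (hc : Computable₂ h) (u : ℕ → ℕ) (hu : Computable u)
    (hs : ∀ i k n, u n ≤ k → h (pre (B i) k) n = A i n) : ULe A B := by
  refine ule_of_opt (fun s n => cond (decide (u n ≤ s.length)) (some (h s n)) none) ?_
    (fun i k n v hv => ?_) fun i n => ⟨u n, by simp⟩
  · exact Computable.cond ((Primrec.nat_le.decide.to_comp).comp (hu.comp Computable.snd)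
      (Computable.list_length.comp Computable.fst)) (Computable.option_some.comp hc)
      (Computable.const _)
  · by_cases hk : u n ≤ k
    · simp only [length_pre, hk, decide_true, cond_true, Option.some.injEq] at hv
      rw [← hv, hs i k n hk]
    · simp [hk] at hv

/-- The join of two strings. -/
def jl (s t : List Bool) : List Bool :=
  (List.range (2 * min s.length t.length)).map fun n =>
    if n % 2 = 0 then s.getD (n / 2) false else t.getD (n / 2) false

lemma jl_pre (x y : X) (k l : ℕ) : jl (pre x k) (pre y l) = pre (J x y) (2 * min k l) := by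
  simp only [jl, length_pre]
  refine List.map_congr_left fun n hn => ?_
  rw [List.mem_range] at hn
  rw [getD_pre (by omega), getD_pre (by omega)]
  rfl

lemma primrec_jl : Primrec₂ jl := by
  refine Primrec.list_map (Primrec.list_range.comp (Primrec.nat_mul.comp (Primrec.const 2)
    (Primrec.nat_min.comp (Primrec.list_length.comp Primrec.fst)
      (Primrec.list_length.comp Primrec.snd)))) ?_
  have h2 : Primrec fun p : (List Bool × List Bool) × ℕ => p.2 / 2 :=
    Primrec.nat_div.comp Primrec.snd (Primrec.const 2)
  exact Primrec.ite (Primrec.eq.comp (Primrec.nat_mod.comp Primrec.snd (Primrec.const 2))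
    (Primrec.const 0)) ((Primrec.list_getD false).comp (Primrec.fst.comp Primrec.fst) h2)
    ((Primrec.list_getD false).comp (Primrec.snd.comp Primrec.fst) h2)

lemma Lim.join {f g : List Bool → List Bool} {a b e : X} (hf : Lim f e a) (hg : Lim g e b) :
    Lim (fun s => jl (f s) (g s)) e (J a b) := by
  obtain ⟨m, hm, hf⟩ := hf
  obtain ⟨m', hm', hg⟩ := hg
  refine ⟨fun k => 2 * min (m k) (m' k), tendsto_atTop.2 fun n => ?_, fun k => by
    simp only [hf, hg, jl_pre]⟩
  filter_upwards [hm.eventually_ge_atTop n, hm'.eventually_ge_atTop n] with k h1 h2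
  omega

lemma ULe.join (h : ULe A E) (h' : ULe B E) : ULe (fun i => J (A i) (B i)) E := by
  obtain ⟨f, hf, h⟩ := h
  obtain ⟨g, hg, h'⟩ := h'
  exact ⟨fun s => jl (f s) (g s), primrec_jl.to_comp.comp hf hg, fun i => (h i).join (h' i)⟩

@[simp] lemma J_even (x y : X) (n : ℕ) : J x y (2 * n) = x n := by simp [J]

@[simp] lemma J_odd (x y : X) (n : ℕ) : J x y (2 * n + 1) = y n := by
  have h1 : (2 * n + 1) % 2 = 1 := by omega
  have h2 : (2 * n + 1) / 2 = n := by omega
  simp [J, h1, h2]

lemma c_ev : Computable₂ fun (s : List Bool) (n : ℕ) => s.getD (2 * n) false :=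
  ((Primrec.list_getD false).comp Primrec.fst
    (Primrec.nat_mul.comp (Primrec.const 2) Primrec.snd)).to_comp

lemma c_od : Computable₂ fun (s : List Bool) (n : ℕ) => s.getD (2 * n + 1) false :=
  ((Primrec.list_getD false).comp Primrec.fst
    (Primrec.succ.comp (Primrec.nat_mul.comp (Primrec.const 2) Primrec.snd))).to_comp

lemma c_use : Computable fun n : ℕ => 2 * n + 4 :=
  (Primrec.nat_add.comp (Primrec.nat_mul.comp (Primrec.const 2) Primrec.id) (Primrec.const 4)).to_comp

lemma ULe.left (A B : ι → X) : ULe A fun i => J (A i) (B i) :=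
  ule_of_use _ c_ev _ c_use fun i k n hk => by rw [getD_pre (by omega), J_even]

lemma ULe.right (A B : ι → X) : ULe B fun i => J (A i) (B i) :=
  ule_of_use _ c_od _ c_use fun i k n hk => by rw [getD_pre (by omega), J_odd]

lemma ULe.xr (h : ULe A E) (h' : ULe B E) : ULe (fun i => xr (A i) (B i)) E := by
  refine ULe.trans (B := fun i => J (A i) (B i)) ?_ (h.join h')
  refine ule_of_use (fun s n => xor (s.getD (2 * n) false) (s.getD (2 * n + 1) false))
    ((Primrec.dom_bool₂ xor).to_comp.comp c_ev c_od) _ c_use fun i k n hk => ?_
  rw [getD_pre (by omega), getD_pre (by omega), J_even, J_odd]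
  rfl

lemma ULe.sh (h : ULe A E) : ULe (fun i => sh (A i)) E := by
  refine ULe.trans (B := A) ?_ h
  refine ule_of_use (fun s n => s.getD (n + 1) false)
    ((Primrec.list_getD false).comp Primrec.fst (Primrec.succ.comp Primrec.snd)).to_comp _ c_use
    fun i k n hk => ?_
  rw [getD_pre (by omega)]
  rfl

lemma ULe.conv (h : ULe A E) (h' : ULe B E) : ULe (fun i => conv (A i) (B i)) E := by
  refine ULe.trans (B := fun i => J (A i) (B i)) ?_ (h.join h')
  refine ule_of_use (fun s m => ((List.range (m + 1)).map fun i =>
    s.getD (2 * i) false && s.getD (2 * (m - i) + 1) false).foldr xor false) ?_ _ c_use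
    fun i k n hk => ?_
  · refine Primrec.to_comp (Primrec.list_foldr (h := fun _ q => xor q.1 q.2) (Primrec.list_map
      (Primrec.list_range.comp (Primrec.succ.comp Primrec.snd)) ?_) (Primrec.const false)
      ((Primrec.dom_bool₂ xor).comp (Primrec.fst.comp Primrec.snd) (Primrec.snd.comp Primrec.snd)))
    exact (Primrec.dom_bool₂ and).comp
      ((Primrec.list_getD false).comp (Primrec.fst.comp Primrec.fst)
        (Primrec.nat_mul.comp (Primrec.const 2) Primrec.snd))
      ((Primrec.list_getD false).comp (Primrec.fst.comp Primrec.fst)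
        (Primrec.succ.comp (Primrec.nat_mul.comp (Primrec.const 2)
          (Primrec.nat_sub.comp (Primrec.snd.comp Primrec.fst) Primrec.snd))))
  · unfold R292.conv
    congr 1
    refine List.map_congr_left fun j hj => ?_
    rw [List.mem_range] at hj
    rw [getD_pre (by omega), getD_pre (by omega), J_even, J_odd]

end Uniform

section Single

variable {a b c e : X}

lemma Le.refl (a : X) : Le a a := (ULe.refl fun _ : Unit => a).le ()

lemma Le.trans (h : Le a b) (h' : Le b c) : Le a c := (h.ule.trans h'.ule).le ()

lemma Le.join (h : Le a e) (h' : Le b e) : Le (J a b) e := (h.ule.join h'.ule).le ()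

lemma Le.left (a b : X) : Le a (J a b) := (ULe.left (fun _ : Unit => a) fun _ => b).le ()

lemma Le.right (a b : X) : Le b (J a b) := (ULe.right (fun _ : Unit => a) fun _ => b).le ()

lemma Le.xr (h : Le a e) (h' : Le b e) : Le (xr a b) e := (h.ule.xr h'.ule).le ()

lemma Le.sh (h : Le a e) : Le (sh a) e := h.ule.sh.le ()

lemma Le.conv (h : Le a e) (h' : Le b e) : Le (conv a b) e := (h.ule.conv h'.ule).le ()

lemma countable_below (b : X) : {a | Le a b}.Countable := by
  have : {a | Le a b} ⊆ ⋃ f ∈ {f : List Bool → List Bool | Computable f}, {a | Lim f b a} :=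
    fun a ⟨f, hf, h⟩ => mem_biUnion hf h
  exact (countable_machines.biUnion fun f _ =>
    Set.Subsingleton.countable fun a ha a' ha' => ha.unique ha').mono this

/-- An automorphism preserves joins. -/
lemma Aut.join {p : X → X} (hp : Aut p) (h : Le c (J a b)) : Le (p c) (J (p a) (p b)) := by
  obtain ⟨d, h1, h2⟩ := hp.surj (J (p a) (p b))
  have ha : Le a d := (hp.le_iff _ _).1 ((Le.left _ _).trans h2)
  have hb : Le b d := (hp.le_iff _ _).1 ((Le.right _ _).trans h2)
  exact ((hp.le_iff _ _).2 (h.trans (ha.join hb))).trans h1

end Single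

/-! ### Algebra and topology of the operations -/

lemma xr_apply (x y : X) (n : ℕ) : xr x y n = xor (x n) (y n) := rfl

lemma xr_comm (x y : X) : xr x y = xr y x := funext fun _ => Bool.xor_comm _ _

lemma xr_assoc (x y z : X) : xr (xr x y) z = xr x (xr y z) := funext fun _ => Bool.xor_assoc _ _ _

@[simp] lemma xr_xr_cancel (x y : X) : xr (xr x y) y = x := funext fun n => by simp [xr]

@[simp] lemma xr_xr_cancel_left (x y : X) : xr x (xr x y) = y := funext fun n => by simp [xr]

lemma continuous_xr : Continuous fun z : X × X => xr z.1 z.2 :=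
  continuous_pi fun n => by
    have h1 : Continuous fun z : X × X => (z.1 n, z.2 n) :=
      ((continuous_apply n).comp continuous_fst).prodMk ((continuous_apply n).comp continuous_snd)
    exact (continuous_of_discreteTopology (f := fun q : Bool × Bool => xor q.1 q.2)).comp h1

lemma continuous_J : Continuous fun z : X × X => J z.1 z.2 :=
  continuous_pi fun n => by
    unfold J
    split_ifs
    · exact (continuous_apply _).comp continuous_fst
    · exact (continuous_apply _).comp continuous_snd

lemma continuous_sh : Continuous sh := continuous_pi fun n => continuous_apply (n + 1)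

lemma continuous_pre (k : ℕ) {α : Type} [TopologicalSpace α] (φ : List Bool → α) :
    Continuous fun x : X => φ (pre x k) := by
  refine IsLocallyConstant.continuous ((IsLocallyConstant.iff_eventually_eq _).2 fun x => ?_)
  filter_upwards [(isOpen_cyl x k).mem_nhds (self_mem_cyl x k)] with y hy
  rw [mem_cyl_iff_pre.1 hy]

lemma continuous_conv (A : X) : Continuous (conv A) := by
  refine continuous_pi fun m => ?_
  have : (fun y : X => conv A y m) = fun y => (fun s : List Bool =>
      ((List.range (m + 1)).map fun i => A i && s.getD (m - i) false).foldr xor false) (pre y (m + 1)) := by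
    funext y
    unfold conv
    congr 1
    refine List.map_congr_left fun j _ => ?_
    rw [getD_pre (by omega)]
  rw [this]
  exact continuous_pre (m + 1) fun s : List Bool =>
    ((List.range (m + 1)).map fun i => A i && s.getD (m - i) false).foldr xor false

/-- Translations preserve the residual filter. -/
lemma tendsto_xr_residual (h : X) : Tendsto (fun x => xr x h) (residual X) (residual X) := by
  have hc : Continuous fun x => xr x h := continuous_xr.comp (continuous_id.prodMk continuous_const)
  let e : X ≃ₜ X :=
    { toFun := fun x => xr x h, invFun := fun x => xr x h, left_inv := fun x => xr_xr_cancel x h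
      right_inv := fun x => xr_xr_cancel x h, continuous_toFun := hc, continuous_invFun := hc }
  exact tendsto_residual_of_isOpenMap e.continuous e.isOpenMap

/-- The graph of a machine is Borel. -/
lemma measurableSet_lim (f : List Bool → List Bool) : MeasurableSet {z : X × X | Lim f z.1 z.2} := by
  have h1 : ∀ k, MeasurableSet {z : X × X | f (pre z.1 k) = pre z.2 (f (pre z.1 k)).length} := by
    intro k
    have : {z : X × X | f (pre z.1 k) = pre z.2 (f (pre z.1 k)).length} =
        ⋃ s : List Bool, {z : X × X | decide (pre z.1 k = s) = true} ∩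
          {z | decide (f s = pre z.2 (f s).length) = true} := by
      ext z
      simp
    rw [this]
    refine MeasurableSet.iUnion fun s => MeasurableSet.inter ?_ ?_
    · exact (((continuous_pre k fun t => decide (t = s)).comp continuous_fst).measurable)
        (MeasurableSet.singleton true)
    · exact (((continuous_pre _ fun t => decide (f s = t)).comp continuous_snd).measurable)
        (MeasurableSet.singleton true)
  have h2 : ∀ n k, MeasurableSet {z : X × X | n ≤ (f (pre z.1 k)).length} := fun n k =>
    (((continuous_pre k fun t => (f t).length).comp continuous_fst).measurable) (measurableSet_Ici (a := n))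
  simp only [lim_iff, ofPred_and, ofPred_forall, ofPred_exists]
  exact (MeasurableSet.iInter h1).inter (MeasurableSet.iInter fun n => MeasurableSet.iUnion fun K =>
    MeasurableSet.iInter fun k => MeasurableSet.iInter fun _ => h2 n k)

end Crest.Agent.R292
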