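import Crest.Agent.R292.Basic

/-! Row 292: countably many Borel functions cover an automorphism. -/

set_option autoImplicit false

namespace Crest.Agent.R292

open Filter Set

namespace Borel

lemma le_cod (G : List Bool → X) (Y : X) (i : ℕ) : Le (G (pre Y i)) (cod G Y) := by
  refine (ule_of_use (ι := Unit) (A := fun _ => G (pre Y i)) (B := fun _ => cod G Y)
    (fun t m => t.getD (Nat.pair i m) false)
    ((Primrec.list_getD false).comp Primrec.fst
      (Primrec₂.natPair.comp (Primrec.const i) Primrec.snd)).to_comp
    (fun m => Nat.pair i m + 1)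
    (Primrec.succ.comp (Primrec₂.natPair.comp (Primrec.const i) Primrec.id)).to_comp
    fun _ k n hk => ?_).le ()
  rw [getD_pre (by omega)]
  simp [cod]

/-- The whole tree as one real. -/
def tree (G : List Bool → X) : X := fun n => G ((Encodable.decode n.unpair.1).getD []) n.unpair.2

lemma cod_le (G : List Bool → X) (Y : X) : Le (cod G Y) (J Y (tree G)) := by
  refine (ule_of_opt (ι := Unit) (A := fun _ => cod G Y) (B := fun _ => J Y (tree G))
    (fun t n => if 2 * n.unpair.1 ≤ t.length then
      t[2 * Nat.pair (Encodable.encode ((List.range n.unpair.1).map fun j => t.getD (2 * j) false))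
        n.unpair.2 + 1]? else none) ?_ (fun _ k n v hv => ?_) fun _ n => ?_).le ()
  · have h1 : Primrec fun q : List Bool × ℕ => q.2.unpair.1 :=
      Primrec.fst.comp (Primrec.unpair.comp Primrec.snd)
    have h2 : Primrec fun q : List Bool × ℕ => q.2.unpair.2 :=
      Primrec.snd.comp (Primrec.unpair.comp Primrec.snd)
    refine Primrec.to_comp (Primrec.ite (Primrec.nat_le.comp (Primrec.nat_mul.comp (Primrec.const 2) h1)
      (Primrec.list_length.comp Primrec.fst)) (Primrec.list_getElem?.comp Primrec.fst
        (Primrec.succ.comp (Primrec.nat_mul.comp (Primrec.const 2) (Primrec₂.natPair.comp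
          (Primrec.encode.comp (Primrec.list_map (Primrec.list_range.comp h1) ?_)) h2))))
      (Primrec.const none))
    exact (Primrec.list_getD false).comp (Primrec.fst.comp Primrec.fst)
      (Primrec.nat_mul.comp (Primrec.const 2) Primrec.snd)
  · rw [length_pre] at hv
    split_ifs at hv with hk
    have e : ((List.range n.unpair.1).map fun j => (pre (J Y (tree G)) k).getD (2 * j) false) =
        pre Y n.unpair.1 := List.map_congr_left fun j hj => by
      rw [List.mem_range] at hj
      rw [getD_pre (by omega), J_even]
    rw [e, getElem?_pre] at hv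
    split_ifs at hv
    rw [J_odd] at hv
    simpa [tree, cod] using hv.symm
  · refine ⟨2 * n.unpair.1 + 2 * Nat.pair (Encodable.encode (pre Y n.unpair.1)) n.unpair.2 + 2, ?_⟩
    have e : ((List.range n.unpair.1).map fun j => (pre (J Y (tree G)) (2 * n.unpair.1 +
        2 * Nat.pair (Encodable.encode (pre Y n.unpair.1)) n.unpair.2 + 2)).getD (2 * j) false) =
        pre Y n.unpair.1 := List.map_congr_left fun j hj => by
      rw [List.mem_range] at hj
      rw [getD_pre (by omega), J_even]
    rw [length_pre, if_pos (by omega), e, getElem?_pre_of_lt (by omega)]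
    rfl

open scoped _root_.Classical in
/-- The total function attached to a machine. -/
noncomputable def ap (f : List Bool → List Bool) (B : X) : X :=
  fun n : ℕ => @decide (∃ k, (f (pre B k))[n]? = some true) (Classical.propDecidable _)

lemma ap_eq {f : List Bool → List Bool} {B c : X} (h : Lim f B c) : ap f B = c := by
  obtain ⟨m, hm, hf⟩ := h
  funext n
  rw [Bool.eq_iff_iff]
  simp only [ap, decide_eq_true_eq]
  constructor
  · rintro ⟨k, hk⟩
    rw [hf, getElem?_pre] at hk
    split_ifs at hk
    exact Option.some.inj hk
  · intro hc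
    obtain ⟨k, hk⟩ := (hm.eventually_gt_atTop n).exists
    exact ⟨k, by rw [hf, getElem?_pre_of_lt hk, hc]⟩

open scoped _root_.Classical in
lemma measurable_decide {α : Type} [MeasurableSpace α] {P : α → Prop} (h : MeasurableSet {x | P x}) :
    Measurable fun x => decide (P x) := by
  refine measurable_to_bool ?_
  convert h using 1
  ext x
  simp

lemma measurable_ap (f : List Bool → List Bool) : Measurable (ap f) := by
  refine measurable_pi_iff.2 fun n => measurable_decide ?_
  rw [ofPred_exists]
  exact MeasurableSet.iUnion fun k =>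
    (continuous_pre k fun s => decide ((f s)[n]? = some true)).measurable
      (MeasurableSet.singleton true) |>.congr (by ext x; simp)

lemma measurableSet_le (a : X) : MeasurableSet {b : X | Le a b} := by
  have : {b : X | Le a b} = ⋃ g ∈ {f : List Bool → List Bool | Computable f}, {b | Lim g b a} := by
    ext b
    simp [Le]
  rw [this]
  exact MeasurableSet.biUnion countable_machines fun g _ =>
    (measurable_id.prodMk measurable_const) (measurableSet_lim g)

end Borel

open Borel in
theorem borelStmt_of (h : GenStmt) : BorelStmt := by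
  classical
  intro p hp
  obtain ⟨G, hG⟩ := h _ countable_machines
  have hcod : ∀ s Y, Le (G s) (cod G Y) ↔ s = pre Y s.length := fun s Y =>
    ⟨fun ⟨f, hf, hl⟩ => by_contra fun hne => hG f hf s Y hne hl, fun e => e ▸ le_cod G Y _⟩
  choose q hq1 hq2 using hp.surj
  have hq : ∀ a b, Le (q a) (q b) ↔ Le a b := fun a b => by
    rw [← hp.le_iff]
    exact ⟨fun h => ((hq2 a).trans h).trans (hq1 b), fun h => ((hq1 a).trans h).trans (hq2 b)⟩
  obtain ⟨φ, hφ⟩ := countable_machines.exists_eq_range ⟨id, Computable.id⟩
  refine ⟨fun e x n => decide (∃ s : List Bool, (s.length = n + 1 ∧ s[n]? = some true) ∧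
    Le (q (G s)) (ap (φ e) (J x (q (tree G))))), fun e => measurable_pi_iff.2 fun n =>
      measurable_decide ?_, fun x => ?_⟩
  · rw [ofPred_exists]
    refine MeasurableSet.iUnion fun s => ?_
    rw [ofPred_and]
    refine (MeasurableSet.const _).inter ?_
    exact ((measurable_ap (φ e)).comp
      (continuous_J.comp (continuous_id.prodMk continuous_const)).measurable) (measurableSet_le _)
  · have h1 : Le (q (cod G (p x))) (J x (q (tree G))) := by
      rw [← hp.le_iff]
      refine ((hq1 _).trans (cod_le G (p x))).trans (Le.join ((hp.le_iff _ _).2 (Le.left _ _)) ?_)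
      exact (hq2 _).trans ((hp.le_iff _ _).2 (Le.right _ _))
    obtain ⟨f, hf, hl⟩ := h1
    obtain ⟨e, rfl⟩ : f ∈ range φ := hφ ▸ hf
    refine ⟨e, funext fun n => ?_⟩
    rw [Bool.eq_iff_iff, decide_eq_true_eq, ap_eq hl]
    simp only [hq, hcod]
    constructor
    · rintro ⟨s, ⟨h1, h2⟩, h3⟩
      rw [h3, h1, getElem?_pre_of_lt (Nat.lt_succ_self n)] at h2
      exact Option.some.inj h2
    · intro hx
      exact ⟨pre (p x) (n + 1), ⟨length_pre _ _, by rw [getElem?_pre_of_lt (Nat.lt_succ_self n), hx]⟩,
        by rw [length_pre]⟩

end Crest.Agent.R292
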