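import Crest.Agent.R292.Basic

/-! Row 292: the group chunk on the image side. -/

set_option autoImplicit false

namespace Crest.Agent.R292

open Filter Set

namespace Chunk

/-- A non-meagre set is nowhere meagre in some open set. -/
lemma loc {α : Type} [TopologicalSpace α] [SecondCountableTopology α] {T : Set α}
    (hT : ¬ IsMeagre T) :
    ∃ U, IsOpen U ∧ U.Nonempty ∧ ∀ z ∈ U, ∀ W, IsOpen W → z ∈ W → ¬ IsMeagre (T ∩ W) := by
  let 𝓑 := {B ∈ TopologicalSpace.countableBasis α | IsMeagre (T ∩ B)}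
  have h1 : IsOpen (⋃₀ 𝓑) :=
    isOpen_sUnion fun B hB => TopologicalSpace.isOpen_of_mem_countableBasis hB.1
  have h2 : IsMeagre (T ∩ ⋃₀ 𝓑) := by
    rw [sUnion_eq_biUnion, inter_iUnion₂]
    exact isMeagre_biUnion ((TopologicalSpace.countable_countableBasis α).mono (sep_subset _ _))
      fun B hB => hB.2
  refine ⟨(closure (⋃₀ 𝓑))ᶜ, isClosed_closure.isOpen_compl, ?_, fun z hz W hW hzW hm => ?_⟩
  · rw [nonempty_compl, Ne, ← dense_iff_closure_eq]
    intro hd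
    apply hT
    have h3 : ∀ᶠ x in residual α, x ∈ ⋃₀ 𝓑 := residual_of_dense_open h1 hd
    have h4 : ∀ᶠ x in residual α, x ∉ T ∩ ⋃₀ 𝓑 := h2
    exact (h3.and h4).mono fun x hx hxT => hx.2 ⟨hxT, hx.1⟩
  · obtain ⟨B, hB, hzB, hBW⟩ :=
      (TopologicalSpace.isBasis_countableBasis α).exists_subset_of_mem_open hzW hW
    exact hz (subset_closure ⟨B, ⟨hB, hm.mono (inter_subset_inter_right _ hBW)⟩, hzB⟩)

lemma resid {α : Type} [TopologicalSpace α] [MeasurableSpace α] [BorelSpace α] {T B U : Set α}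
    (hB : MeasurableSet B) (hTB : T ⊆ B)
    (hU : ∀ z ∈ U, ∀ W, IsOpen W → z ∈ W → ¬ IsMeagre (T ∩ W)) :
    ∀ᶠ z in residual α, z ∈ U → z ∈ B := by
  obtain ⟨O, hO, h⟩ := hB.baireMeasurableSet.residualEq_isOpen
  have h' : ∀ᶠ z in residual α, z ∈ B ↔ z ∈ O := eventuallyEq_set.1 h
  have h1 : U ⊆ closure O := fun z hz => by
    by_contra hc
    refine hU z hz _ isClosed_closure.isOpen_compl hc ?_
    exact h'.mono fun x hx hxT => hxT.2 (subset_closure (hx.1 (hTB hxT.1)))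
  have h2 : ∀ᶠ z in residual α, z ∈ closure O ↔ z ∈ O :=
    eventuallyEq_set.1 (closure_residualEq hO.isLocallyClosed)
  filter_upwards [h', h2] with z a b hz
  exact a.2 (b.1 (h1 hz))

lemma box {U : Set (X × X)} (hU : IsOpen U) (hne : U.Nonempty) :
    ∃ u v k, ∀ x ∈ cyl u k, ∀ y ∈ cyl v k, (x, y) ∈ U := by
  obtain ⟨⟨u, v⟩, h⟩ := hne
  obtain ⟨P, Q, hP, hQ, hu, hv, hs⟩ := isOpen_prod_iff.1 hU u v h
  obtain ⟨k, hk⟩ := exists_cyl_subset hP hu
  obtain ⟨l, hl⟩ := exists_cyl_subset hQ hv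
  exact ⟨u, v, max k l, fun x hx y hy =>
    hs ⟨hk (cyl_mono u (le_max_left _ _) hx), hl (cyl_mono v (le_max_right _ _) hy)⟩⟩

abbrev M : Type := {f : List Bool → List Bool // Computable f}

instance : Countable M := countable_machines

def Ls (A : X) : Fin 3 → X → X := ![id, sh, conv A]

lemma continuous_Ls (A : X) (j : Fin 3) : Continuous (Ls A j) := by
  fin_cases j
  exacts [continuous_id, continuous_sh, continuous_conv A]

lemma le_Ls (A : X) (j : Fin 3) {y E : X} (hy : Le y E) (hA : Le A E) : Le (Ls A j y) E := by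
  fin_cases j
  exacts [hy, hy.sh, hA.conv hy]

abbrev Ix : Type := ℕ × ℕ × (Fin 3 → ℕ × M × M) × M

/-- The Borel set of the pairs at which the machines work. -/
def Bo (A : X) (G : ℕ → X → X) (i : Ix) : Set (X × X) :=
  {z | (∀ j, Lim (i.2.2.1 j).2.1 (J (G i.1 z.1) (G i.2.1 z.2)) (G (i.2.2.1 j).1 (xr z.1 (Ls A j z.2))) ∧
    Lim (i.2.2.1 j).2.2 (J (G (i.2.2.1 j).1 (xr z.1 (Ls A j z.2))) (G i.2.1 z.2)) (G i.1 z.1)) ∧
    Lim i.2.2.2 (J (G (i.2.2.1 0).1 (xr z.1 (Ls A 0 z.2))) (G i.1 z.1)) (G i.2.1 z.2)}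

lemma ms_lim (f : List Bool → List Bool) {a b c : X × X → X} (ha : Measurable a) (hb : Measurable b)
    (hc : Measurable c) : MeasurableSet {z | Lim f (J (a z) (b z)) (c z)} :=
  ((continuous_J.measurable.comp (ha.prodMk hb)).prodMk hc) (measurableSet_lim f)

lemma measurableSet_Bo (A : X) {G : ℕ → X → X} (hG : ∀ e, Measurable (G e)) (i : Ix) :
    MeasurableSet (Bo A G i) := by
  have h1 : Measurable fun z : X × X => G i.1 z.1 := (hG _).comp measurable_fst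
  have h2 : Measurable fun z : X × X => G i.2.1 z.2 := (hG _).comp measurable_snd
  have h3 : ∀ j, Measurable fun z : X × X => G (i.2.2.1 j).1 (xr z.1 (Ls A j z.2)) := fun j =>
    (hG _).comp (continuous_xr.comp
      (continuous_fst.prodMk ((continuous_Ls A j).comp continuous_snd))).measurable
  simp only [Bo, ofPred_and, ofPred_forall]
  exact (MeasurableSet.iInter fun j => (ms_lim _ h1 h2 (h3 j)).inter (ms_lim _ (h3 j) h2 h1)).inter
    (ms_lim _ (h3 0) h1 h2)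

lemma tr (A : X) (G : ℕ → X → X) (i : Ix) (j : Fin 3) :
    Tr (Bo A G i) (G i.1) (G i.2.1) (Ls A j) := by
  let ι := {t : X × X × X // (t.1, t.2.1) ∈ Bo A G i ∧
    (xr t.1 (xr (Ls A j t.2.1) (Ls A j t.2.2)), t.2.2) ∈ Bo A G i}
  have h1 : ULe (fun t : ι => G (i.2.2.1 j).1 (xr t.1.1 (Ls A j t.1.2.1)))
      fun t => J (G i.1 t.1.1) (G i.2.1 t.1.2.1) := ⟨_, (i.2.2.1 j).2.1.2, fun t => (t.2.1.1 j).1⟩
  have h2 : ULe (fun t : ι => G i.1 (xr t.1.1 (xr (Ls A j t.1.2.1) (Ls A j t.1.2.2))))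
      fun t => J (G (i.2.2.1 j).1 (xr t.1.1 (Ls A j t.1.2.1))) (G i.2.1 t.1.2.2) :=
    ⟨_, (i.2.2.1 j).2.2.2, fun t => by
      have := (t.2.2.1 j).2
      simp only at this
      rwa [xr_assoc t.1.1, xr_xr_cancel] at this⟩
  obtain ⟨f, hf, h⟩ := h2.trans ((h1.trans (ULe.left _ fun t : ι => G i.2.1 t.1.2.2)).join
    (ULe.right _ _))
  exact ⟨f, hf, fun x y y' a b => h ⟨(x, y, y'), a, b⟩⟩

lemma back (A : X) (G : ℕ → X → X) (i : Ix) : Back (Bo A G i) (G i.1) (G i.2.1) := by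
  let ι := {t : X × X × X // (t.1, t.2.1) ∈ Bo A G i ∧
    (t.2.2, xr t.2.1 (xr t.1 t.2.2)) ∈ Bo A G i}
  have h1 : ULe (fun t : ι => G (i.2.2.1 0).1 (xr t.1.1 t.1.2.1))
      fun t => J (G i.1 t.1.1) (G i.2.1 t.1.2.1) := ⟨_, (i.2.2.1 0).2.1.2, fun t => (t.2.1.1 0).1⟩
  have e : ∀ x y x' : X, xr x' (Ls A 0 (xr y (xr x x'))) = xr x y := fun x y x' => by
    funext n
    show xor (x' n) (xor (y n) (xor (x n) (x' n))) = xor (x n) (y n)
    cases x n <;> cases y n <;> cases x' n <;> rfl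
  have h2 : ULe (fun t : ι => G i.2.1 (xr t.1.2.1 (xr t.1.1 t.1.2.2)))
      fun t => J (G (i.2.2.1 0).1 (xr t.1.1 t.1.2.1)) (G i.1 t.1.2.2) :=
    ⟨_, i.2.2.2.2, fun t => by
      have := t.2.2.2
      simp only [e] at this
      exact this⟩
  obtain ⟨f, hf, h⟩ := h2.trans ((h1.trans (ULe.left _ fun t : ι => G i.1 t.1.2.2)).join
    (ULe.right _ _))
  exact ⟨f, hf, fun x y x' a b => h ⟨(x, y, x'), a, b⟩⟩

lemma cover {p : X → X} (hp : Aut p) (A : X) {G : ℕ → X → X} (hG : ∀ x, ∃ e, G e x = p (J x A))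
    (x y : X) : ∃ i : Ix, G i.1 x = p (J x A) ∧ G i.2.1 y = p (J y A) ∧ (x, y) ∈ Bo A G i := by
  have key : ∀ {a b c : X}, Le c (J (J a A) (J b A)) →
      ∃ f : M, Lim f (J (p (J a A)) (p (J b A))) (p (J c A)) := fun {a b c} h => by
    obtain ⟨f, hf, h⟩ := hp.join (h.join ((Le.right a A).trans (Le.left _ (J b A))))
    exact ⟨⟨f, hf⟩, h⟩
  have l1 : ∀ a b : X, Le a (J (J a A) (J b A)) := fun a b => (Le.left _ _).trans (Le.left _ _)
  have l2 : ∀ a b : X, Le b (J (J a A) (J b A)) := fun a b => (Le.left _ _).trans (Le.right _ _)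
  have l3 : ∀ a b : X, Le A (J (J a A) (J b A)) := fun a b => (Le.right _ _).trans (Le.left _ _)
  obtain ⟨e1, h1⟩ := hG x
  obtain ⟨e2, h2⟩ := hG y
  choose e h3 using fun j => hG (xr x (Ls A j y))
  choose f h4 using fun j => key ((l1 x y).xr (le_Ls A j (l2 x y) (l3 x y)))
  choose g h5 using fun j => key (a := xr x (Ls A j y)) (b := y) (c := x) (by
    have := (l1 (xr x (Ls A j y)) y).xr (le_Ls A j (l2 _ y) (l3 _ y))
    rwa [xr_xr_cancel] at this)
  obtain ⟨h, h6⟩ := key (a := xr x (Ls A 0 y)) (b := x) (c := y) (by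
    have := (l2 (xr x (Ls A 0 y)) x).xr (l1 _ x)
    rwa [xr_xr_cancel_left] at this)
  refine ⟨(e1, e2, fun j => (e j, f j, g j), h), h1, h2, fun j => ?_, ?_⟩
  · simp only [h1, h2, h3]
    exact ⟨h4 j, h5 j⟩
  · simp only [h1, h2, h3]
    exact h6

end Chunk

open Chunk in
theorem chunkStmt : ChunkStmt := by
  intro p A F hp hF hc
  let G : ℕ → X → X := fun e x => F e (J x A)
  have hG : ∀ e, Measurable (G e) := fun e =>
    (hF e).comp (continuous_J.comp (continuous_id.prodMk continuous_const)).measurable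
  let T : Ix → Set (X × X) := fun i =>
    {z | G i.1 z.1 = p (J z.1 A) ∧ G i.2.1 z.2 = p (J z.2 A) ∧ z ∈ Bo A G i}
  obtain ⟨i, hi⟩ : ∃ i, ¬ IsMeagre (T i) := by
    by_contra h
    push Not at h
    refine not_isMeagre_of_isOpen isOpen_univ univ_nonempty ((isMeagre_iUnion h).mono fun z _ => ?_)
    exact mem_iUnion.2 (cover hp A (fun x => hc (J x A)) z.1 z.2)
  obtain ⟨U, hU, hne, hl⟩ := loc hi
  obtain ⟨u, v, k, hb⟩ := box hU hne
  refine ⟨G i.1, G i.2.1, u, v, k, Bo A G i, hG _, ?_, fun x hx l hm => ?_, fun y hy l hm => ?_,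
    tr A G i 0, tr A G i 1, tr A G i 2, back A G i⟩
  · exact (resid (measurableSet_Bo A hG i) (fun z hz => hz.2.2) hl).mono fun z hz h1 h2 =>
      hz (hb _ h1 _ h2)
  · refine hl _ (hb x hx v (self_mem_cyl _ _)) _ ((isOpen_cyl x l).preimage continuous_fst)
      (self_mem_cyl x l) ((hm.preimage_of_isOpenMap continuous_fst isOpenMap_fst).mono ?_)
    exact fun z hz => ⟨hz.1.1, hz.2⟩
  · refine hl _ (hb u (self_mem_cyl _ _) y hy) _ ((isOpen_cyl y l).preimage continuous_snd)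
      (self_mem_cyl y l) ((hm.preimage_of_isOpenMap continuous_snd isOpenMap_snd).mono ?_)
    exact fun z hz => ⟨hz.1.2.1, hz.2⟩

end Crest.Agent.R292
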