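import Mathlib
import Crest.Prelude.Def_SetDegree

/-!
Row 292 (S0441): rigidity of the Turing degrees. Definitions and the interface of the parts.

Reals are points of `X = ℕ → Bool`. A machine is a computable map on finite strings; it computes `A`
from `B` when it sends the initial segments of `B` to longer and longer initial segments of `A`.
-/

set_option autoImplicit false

namespace Crest.Agent.R292

open Filter Set Crest.LogicCS.Degrees

/-- Cantor space. -/
abbrev X : Type := ℕ → Bool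

/-- The initial segment of length `k`. -/
def pre (x : X) (k : ℕ) : List Bool := (List.range k).map x

/-- The cylinder of the reals that agree with `x` below `k`. -/
def cyl (x : X) (k : ℕ) : Set X := {y | ∀ i < k, y i = x i}

/-- `f` computes `A` from `B`. -/
def Lim (f : List Bool → List Bool) (B A : X) : Prop :=
  ∃ m : ℕ → ℕ, Tendsto m atTop atTop ∧ ∀ k, f (pre B k) = pre A (m k)

/-- `A` is reducible to `B`. -/
def Le (A B : X) : Prop := ∃ f, Computable f ∧ Lim f B A

/-- `A i` is reducible to `B i` by one machine for all `i`. -/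
def ULe {ι : Type} (A B : ι → X) : Prop := ∃ f, Computable f ∧ ∀ i, Lim f (B i) (A i)

/-- The join. -/
def J (x y : X) : X := fun n => if n % 2 = 0 then x (n / 2) else y (n / 2)

/-- The sum in the group `(ℤ/2)^ℕ`. -/
def xr (x y : X) : X := fun n => xor (x n) (y n)

/-- The shift. -/
def sh (x : X) : X := fun n => x (n + 1)

/-- The product of power series over `ℤ/2`. -/
def conv (A y : X) : X := fun m => ((List.range (m + 1)).map fun i => A i && y (m - i)).foldr xor false

/-- The real whose `i`-th column is the real attached to the initial segment of `Y` of length `i`. -/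
def cod (G : List Bool → X) (Y : X) : X := fun n => G (pre Y n.unpair.1) n.unpair.2

/-- `p` represents an automorphism of the degrees. -/
structure Aut (p : X → X) : Prop where
  le_iff : ∀ A B, Le (p A) (p B) ↔ Le A B
  surj : ∀ B, ∃ A, Le (p A) B ∧ Le B (p A)

/-- A machine translating by `L y + L y'` on the image side. -/
def Tr (Γ : Set (X × X)) (F₁ F₂ L : X → X) : Prop :=
  ∃ f, Computable f ∧ ∀ x y y', (x, y) ∈ Γ → (xr x (xr (L y) (L y')), y') ∈ Γ →
    Lim f (J (J (F₁ x) (F₂ y)) (F₂ y')) (F₁ (xr x (xr (L y) (L y'))))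

/-- A machine translating by `x + x'` in the second coordinate. -/
def Back (Γ : Set (X × X)) (F₁ F₂ : X → X) : Prop :=
  ∃ f, Computable f ∧ ∀ x y x', (x, y) ∈ Γ → (x', xr y (xr x x')) ∈ Γ →
    Lim f (J (J (F₁ x) (F₂ y)) (F₁ x')) (F₂ (xr y (xr x x')))

/-! ### The parts -/

/-- Library reducibility gives a machine. -/
def NF1Stmt : Prop :=
  ∀ A B : X, TuringReducible (charFun {n | A n = true}) (charFun {n | B n = true}) → Le A B

/-- A machine gives library reducibility. -/
def NF2Stmt : Prop :=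
  ∀ A B : X, Le A B → TuringReducible (charFun {n | A n = true}) (charFun {n | B n = true})

/-- A tree of mutually generic reals. -/
def GenStmt : Prop :=
  ∀ 𝓕 : Set (List Bool → List Bool), 𝓕.Countable → ∃ G : List Bool → X,
    ∀ f ∈ 𝓕, ∀ (s : List Bool) (Y : X), s ≠ pre Y s.length → ¬ Lim f (cod G Y) (G s)

/-- A non-meagre set of oracles does not help. -/
def RemStmt : Prop :=
  ∀ (S : Set X) (B C : X), ¬ IsMeagre S → (∀ a ∈ S, Le B (J C a)) → Le B C

/-- Countably many Borel functions cover an automorphism. -/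
def BorelStmt : Prop :=
  ∀ p : X → X, Aut p → ∃ F : ℕ → X → X, (∀ e, Measurable (F e)) ∧ ∀ x, ∃ e, F e x = p x

/-- The group chunk on the image side. -/
def ChunkStmt : Prop :=
  ∀ (p : X → X) (A : X) (F : ℕ → X → X), Aut p → (∀ e, Measurable (F e)) → (∀ x, ∃ e, F e x = p x) →
    ∃ (F₁ F₂ : X → X) (u v : X) (k : ℕ) (Γ : Set (X × X)), Measurable F₁ ∧
      (∀ᶠ z in residual (X × X), z.1 ∈ cyl u k → z.2 ∈ cyl v k → z ∈ Γ) ∧
      (∀ x ∈ cyl u k, ∀ l, ¬ IsMeagre ({x' | F₁ x' = p (J x' A)} ∩ cyl x l)) ∧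
      (∀ y ∈ cyl v k, ∀ l, ¬ IsMeagre ({y' | F₂ y' = p (J y' A)} ∩ cyl y l)) ∧
      Tr Γ F₁ F₂ id ∧ Tr Γ F₁ F₂ sh ∧ Tr Γ F₁ F₂ (conv A) ∧ Back Γ F₁ F₂

/-- One bit of a translation is read off finitely many bits of `F`. -/
def TestStmt : Prop :=
  ∀ (F : X → X) (u : X) (k : ℕ), Measurable F →
    (∀ x ∈ cyl u k, ∀ (l : ℕ) (c : X), ¬ ∀ᶠ x' in residual X, x' ∈ cyl x l → F x' = c) →
    ∃ (j l n₀ : ℕ) (C : Set X), k < j ∧ k ≤ l ∧ C ∈ residual X ∧
      ∀ W : Set X, (∀ x ∈ cyl u k, ∃ w ∈ W, w ∈ cyl x l) →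
        ∀ h h' : X, (∀ i < j, h i = false) → (∀ i < j, h' i = false) →
          (∀ w ∈ W, xr w h ∈ C ∧ xr w h' ∈ C ∧ pre (F (xr w h)) n₀ = pre (F (xr w h')) n₀) →
          h j = h' j

/-- Iterating two machines along the bits read by a third one. -/
def IterStmt : Prop :=
  ∀ (A O : X) (Q : ℕ → X), Le (Q 0) O →
    (∀ v : Bool, ULe (fun n : {n : ℕ // A n = v} => Q (n.1 + 1)) fun n => J (Q n.1) O) →
    ULe (fun (n : ℕ) (_ : ℕ) => A n) (fun n => J (Q n) O) → Le A O

/-- A bit determined by finitely many bits of uniformly computed reals is uniformly computed. -/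
def TableStmt : Prop :=
  ∀ (ι : Type) (E : ι → X) (Ds : List (ι → X)) (n₀ : ℕ) (b : ι → Bool), (∀ D ∈ Ds, ULe D E) →
    (∀ i i', (∀ D ∈ Ds, pre (D i) n₀ = pre (D i') n₀) → b i = b i') →
    ULe (fun (i : ι) (_ : ℕ) => b i) E

/-- Sections of a residual set. -/
def KUStmt : Prop :=
  ∀ Γ ∈ residual (X × X), ∀ᶠ y in residual X, ∀ᶠ x in residual X, (x, y) ∈ Γ

/-- The main theorem. -/
def MainStmt : Prop := ∀ p : X → X, Aut p → ∀ B, Le B (p B)

end Crest.Agent.R292
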