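import Crest.Agent.R292.Basic

/-! Row 292: from the main theorem on reals to the rigidity of the degrees. -/

set_option autoImplicit false

namespace Crest.Agent.R292

open Crest.LogicCS.Degrees

namespace Final

/-- The degree of a real. -/
noncomputable def dg (A : X) : SetDegree := ⟨degOf {n | A n = true}, _, rfl⟩

theorem dg_surj : Function.Surjective dg := by
  classical
  rintro ⟨d, S, rfl⟩
  refine ⟨fun n => decide (n ∈ S), Subtype.ext ?_⟩
  simp [dg]

theorem dg_le (h1 : NF1Stmt) (h2 : NF2Stmt) (A B : X) : dg A ≤ dg B ↔ Le A B :=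
  ⟨fun h => h1 A B h, fun h => h2 A B h⟩

theorem le_apply (h1 : NF1Stmt) (h2 : NF2Stmt) (h : MainStmt) (π : SetDegree ≃o SetDegree)
    (d : SetDegree) : d ≤ π d := by
  choose p hp using fun A => dg_surj (π (dg A))
  have ha : Aut p := by
    refine ⟨fun A B => ?_, fun B => ?_⟩
    · rw [← dg_le h1 h2, ← dg_le h1 h2, hp, hp, π.le_iff_le]
    · obtain ⟨A, hA⟩ := dg_surj (π.symm (dg B))
      have e : dg (p A) = dg B := by rw [hp, hA, π.apply_symm_apply]
      exact ⟨A, (dg_le h1 h2 _ _).1 e.le, (dg_le h1 h2 _ _).1 e.ge⟩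
  obtain ⟨B, rfl⟩ := dg_surj d
  rw [← hp, dg_le h1 h2]
  exact h p ha B

end Final

theorem final (h1 : NF1Stmt) (h2 : NF2Stmt) (h : MainStmt) (π : SetDegree ≃o SetDegree) :
    π = OrderIso.refl _ := by
  ext1
  funext d
  refine le_antisymm ?_ (Final.le_apply h1 h2 h π d)
  have := Final.le_apply h1 h2 h π.symm (π d)
  rwa [π.symm_apply_apply] at this

end Crest.Agent.R292
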