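import Crest.Agent.R292.Basic

/-! Row 292: a tree of mutually generic reals. -/

set_option autoImplicit false

namespace Crest.Agent.R292

open Filter Set

namespace Gen

/-- The space of trees of reals. -/
abbrev Ω : Type := List Bool × ℕ → Bool

/-- The tree of reals attached to a point. -/
def tr (g : Ω) : List Bool → X := fun r m => g (r, m)

/-- `g'` agrees with `g` on `E`. -/
def Ag (E : Set (List Bool × ℕ)) (g g' : Ω) : Prop := ∀ p ∈ E, g' p = g p

/-- The condition `(E, g)` forces the failure of `f` along all branches through `r`. -/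
def P (f : List Bool → List Bool) (s : List Bool) (E : Set (List Bool × ℕ)) (g : Ω)
    (r : List Bool) : Prop :=
  ∀ g', Ag E g g' → ∀ Y : X, pre Y r.length = r → ¬ Lim f (cod (tr g') Y) (tr g' s)

lemma P.mono {f : List Bool → List Bool} {s r : List Bool} {E E' : Set (List Bool × ℕ)} {g g' : Ω}
    (h : P f s E g r) (hE : E ⊆ E') (hg : Ag E g g') : P f s E' g' r :=
  fun g'' h'' => h g'' fun p hp => (h'' p (hE hp)).trans (hg p hp)

lemma step (f : List Bool → List Bool) (s r : List Bool) (E : Set (List Bool × ℕ)) (g : Ω)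
    (hE : E.Finite) (hs : s.length ≤ r.length) (hsr : s ≠ r.take s.length)
    (hfree : ∀ p ∈ E, r.length < p.1.length → p.1.take r.length ≠ r) :
    ∃ (E' : Set (List Bool × ℕ)) (g' : Ω), E'.Finite ∧ E ⊆ E' ∧ Ag E g g' ∧ P f s E' g' r ∧
      ∀ p ∈ E', p ∈ E ∨ p.1.length ≤ r.length ∨ p.1.take r.length = r := by
  classical
  obtain ⟨n, hn⟩ : ∃ n, (s, n) ∉ E := by
    obtain ⟨n, hn⟩ := (hE.image Prod.snd).exists_notMem
    exact ⟨n, fun h => hn ⟨_, h, rfl⟩⟩
  by_cases hc : ∃ (Z : X) (k : ℕ), (∀ i ≤ r.length, ∀ m, (r.take i, m) ∈ E →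
      Z (Nat.pair i m) = g (r.take i, m)) ∧ n < (f (pre Z k)).length
  · obtain ⟨Z, k, hZ, hk⟩ := hc
    have hsc : ¬ s.take r.length = r.take s.length := by
      rw [List.take_of_length_le hs]; exact hsr
    let g' : Ω := fun p => if p.1.take r.length = r.take p.1.length then Z (Nat.pair p.1.length p.2)
      else if p = (s, n) then !((f (pre Z k)).getD n false) else g p
    refine ⟨E ∪ ({(s, n)} ∪ {p | p.1.take r.length = r.take p.1.length ∧
      Nat.pair p.1.length p.2 < k}), g', ?_, subset_union_left, ?_, ?_, ?_⟩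
    · refine hE.union ((finite_singleton _).union ?_)
      refine ((List.finite_length_lt Bool k).prod (finite_lt_nat k)).subset ?_
      rintro ⟨r', m⟩ ⟨-, h2⟩
      exact ⟨lt_of_le_of_lt (Nat.left_le_pair _ _) h2, lt_of_le_of_lt (Nat.right_le_pair _ _) h2⟩
    · rintro ⟨r', m⟩ hp
      by_cases h1 : r'.take r.length = r.take r'.length
      · simp only [g', if_pos h1]
        rcases le_or_gt r'.length r.length with h2 | h2
        · rw [List.take_of_length_le h2] at h1
          rw [hZ _ h2 m (h1 ▸ hp), ← h1]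
        · rw [List.take_of_length_le h2.le] at h1
          exact absurd h1 (hfree _ hp h2)
      · have h2 : (r', m) ≠ (s, n) := fun h => hn (h ▸ hp)
        simp only [g', if_neg h1, if_neg h2]
    · rintro g'' hg'' Y hY ⟨m, -, hm⟩
      have e : pre (cod (tr g'') Y) k = pre Z k := by
        refine pre_eq_iff.2 fun j hj => ?_
        have h1 : (pre Y j.unpair.1).take r.length = r.take (pre Y j.unpair.1).length := by
          rw [length_pre, take_pre]
          conv_rhs => rw [← hY, take_pre, min_comm]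
        have h2 : Nat.pair (pre Y j.unpair.1).length j.unpair.2 = j := by
          rw [length_pre, Nat.pair_unpair]
        have := hg'' (pre Y j.unpair.1, j.unpair.2) (Or.inr (Or.inr ⟨h1, by rw [h2]; exact hj⟩))
        simp only [g', if_pos h1, h2] at this
        exact this
      have h1 := hm k
      rw [e] at h1
      have h2 := hg'' (s, n) (Or.inr (Or.inl rfl))
      simp only [g', if_neg hsc, if_true] at h2
      rw [h1, length_pre] at hk
      rw [h1, getD_pre hk] at h2
      exact absurd h2 (by simp [tr])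
    · rintro ⟨r', m⟩ (hp | hp | ⟨h1, -⟩)
      · exact Or.inl hp
      · rw [mem_singleton_iff] at hp
        rw [hp]
        exact Or.inr (Or.inl hs)
      · rcases le_or_gt r'.length r.length with h2 | h2
        · exact Or.inr (Or.inl h2)
        · refine Or.inr (Or.inr ?_)
          simp only at h1 ⊢
          rw [h1, List.take_of_length_le h2.le]
  · refine ⟨E, g, hE, Subset.rfl, fun _ _ => rfl, ?_, fun p hp => Or.inl hp⟩
    rintro g'' hg'' Y hY ⟨m, hm, hf⟩
    obtain ⟨k, hk⟩ := (hm.eventually_gt_atTop n).exists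
    refine hc ⟨cod (tr g'') Y, k, fun i hi m' hm' => ?_, by rw [hf, length_pre]; exact hk⟩
    have h1 : pre Y i = r.take i := by
      conv_rhs => rw [← hY, take_pre, min_eq_left hi]
    simp only [cod, Nat.unpair_pair, tr, h1]
    exact hg'' _ hm'

lemma iter (f : List Bool → List Bool) (s : List Bool) (N : ℕ) (E : Set (List Bool × ℕ)) (g : Ω)
    (hE : E.Finite) (hs : s.length ≤ N) (hN : ∀ p ∈ E, p.1.length ≤ N) (R : Finset (List Bool)) :
    (∀ r ∈ R, r.length = N ∧ s ≠ r.take s.length) →
      ∃ (E' : Set (List Bool × ℕ)) (g' : Ω), E'.Finite ∧ E ⊆ E' ∧ Ag E g g' ∧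
        (∀ r ∈ R, P f s E' g' r) ∧ ∀ p ∈ E', p.1.length ≤ N ∨ p.1.take N ∈ R := by
  classical
  induction R using Finset.induction_on with
  | empty =>
    exact fun _ => ⟨E, g, hE, Subset.rfl, fun _ _ => rfl, by simp, fun p hp => Or.inl (hN p hp)⟩
  | insert r R hr ih =>
    intro hR
    obtain ⟨E₁, g₁, h1, h2, h3, h4, h5⟩ := ih fun r' hr' => hR r' (Finset.mem_insert_of_mem hr')
    obtain ⟨hl, hsr⟩ := hR r (Finset.mem_insert_self _ _)
    subst hl
    obtain ⟨E₂, g₂, k1, k2, k3, k4, k5⟩ := step f s r E₁ g₁ h1 hs hsr fun p hp hlt h => by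
      rcases h5 p hp with h' | h'
      · omega
      · exact hr (h ▸ h')
    refine ⟨E₂, g₂, k1, h2.trans k2, fun p hp => (k3 p (h2 hp)).trans (h3 p hp), fun r' hr' => ?_,
      fun p hp => ?_⟩
    · rcases Finset.mem_insert.1 hr' with rfl | hr'
      · exact k4
      · exact (h4 r' hr').mono k2 k3
    · rcases k5 p hp with h | h | h
      · exact (h5 p h).imp_right Finset.mem_insert_of_mem
      · exact Or.inl h
      · exact Or.inr (h.symm ▸ Finset.mem_insert_self _ _)

lemma isOpen_ag {E : Set (List Bool × ℕ)} (hE : E.Finite) (g : Ω) : IsOpen {g' | Ag E g g'} := by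
  have : {g' | Ag E g g'} = ⋂ p ∈ E, (fun g' : Ω => g' p) ⁻¹' {g p} := by
    ext g'
    simp [Ag]
  rw [this]
  exact hE.isOpen_biInter fun p _ => (isOpen_discrete _).preimage (continuous_apply p)

lemma dense_good (f : List Bool → List Bool) (s : List Bool) :
    Dense (interior {g : Ω | ∀ Y : X, s ≠ pre Y s.length → ¬ Lim f (cod (tr g) Y) (tr g s)}) := by
  classical
  refine dense_iff_inter_open.2 fun U hU ⟨g, hg⟩ => ?_
  obtain ⟨I, u, h1, h2⟩ := isOpen_pi_iff.1 hU g hg
  let N := max s.length (I.sup fun p => p.1.length)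
  have hfin : {r : List Bool | r.length = N ∧ s ≠ r.take s.length}.Finite :=
    (List.finite_length_eq Bool N).subset fun r hr => hr.1
  obtain ⟨E', g', k1, -, k3, k4, -⟩ := iter f s N (I : Set (List Bool × ℕ)) g I.finite_toSet
    (le_max_left _ _)
    (fun p hp => le_trans (Finset.le_sup (f := fun p : List Bool × ℕ => p.1.length) hp)
      (le_max_right _ _)) hfin.toFinset fun r hr => hfin.mem_toFinset.1 hr
  refine ⟨g', h2 fun p hp => ?_, ?_⟩
  · rw [k3 p hp]
    exact (h1 p hp).2
  · refine mem_interior.2 ⟨{g'' | Ag E' g' g''}, fun g'' hg'' Y hY => ?_, isOpen_ag k1 g',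
      fun _ _ => rfl⟩
    refine k4 (pre Y N) (hfin.mem_toFinset.2 ⟨length_pre _ _, ?_⟩) g'' hg'' Y (by rw [length_pre])
    rw [take_pre, min_eq_left (le_max_left _ _)]
    exact hY

end Gen

theorem genStmt : GenStmt := by
  intro 𝓕 h𝓕
  have hc : (𝓕 ×ˢ (univ : Set (List Bool))).Countable := h𝓕.prod countable_univ
  obtain ⟨g, hg⟩ := (dense_biInter_of_isOpen (f := fun q : (List Bool → List Bool) × List Bool =>
    interior {g : Gen.Ω | ∀ Y : X, q.2 ≠ pre Y q.2.length →
      ¬ Lim q.1 (cod (Gen.tr g) Y) (Gen.tr g q.2)}) (fun _ _ => isOpen_interior) hc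
    fun q _ => Gen.dense_good q.1 q.2).nonempty
  exact ⟨Gen.tr g, fun f hf s => interior_subset (mem_iInter₂.1 hg (f, s) ⟨hf, mem_univ _⟩)⟩

end Crest.Agent.R292
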