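import Crest.Agent.R292.Basic

/-! Row 292: iterating machines along computed bits, and finite tables. -/

set_option autoImplicit false

namespace Crest.Agent.R292

open Filter Set

namespace Iter

/-- The state after `n` rounds. -/
def state (i b : List Bool → List Bool) (t : Bool → List Bool → List Bool) (s : List Bool) (n : ℕ) :
    List Bool :=
  Nat.rec (i s) (fun _ IH => Option.casesOn (b (jl IH s)).head? [] fun v => t v (jl IH s)) n

lemma state_succ (i b : List Bool → List Bool) (t : Bool → List Bool → List Bool) (s : List Bool)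
    (n : ℕ) : state i b t s (n + 1) = Option.casesOn (b (jl (state i b t s n) s)).head? []
      fun v => t v (jl (state i b t s n) s) := rfl

lemma computable_state {i b : List Bool → List Bool} {t : Bool → List Bool → List Bool}
    (hi : Computable i) (hb : Computable b) (ht : ∀ v, Computable (t v)) :
    Computable₂ (state i b t) := by
  have hj : Computable fun x : (List Bool × ℕ) × ℕ × List Bool => jl x.2.2 x.1.1 :=
    primrec_jl.to_comp.comp (Computable.snd.comp Computable.snd) (Computable.fst.comp Computable.fst)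
  refine Computable.nat_rec (f := fun p : List Bool × ℕ => p.2) (g := fun p => i p.1)
    (h := fun p q => Option.casesOn (b (jl q.2 p.1)).head? [] fun v => t v (jl q.2 p.1))
    Computable.snd (hi.comp Computable.fst) ?_
  refine Computable.option_casesOn (Primrec.list_head?.to_comp.comp (hb.comp hj))
    (Computable.const _) ?_
  have h2 : Computable fun y : ((List Bool × ℕ) × ℕ × List Bool) × Bool =>
      cond y.2 (t true (jl y.1.2.2 y.1.1.1)) (t false (jl y.1.2.2 y.1.1.1)) :=
    Computable.cond Computable.snd ((ht true).comp (hj.comp Computable.fst))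
      ((ht false).comp (hj.comp Computable.fst))
  exact h2.of_eq fun y => by cases y.2 <;> rfl

lemma head?_pre (v : Bool) (m : ℕ) :
    (pre (fun _ => v) m).head? = if m = 0 then none else some v := by
  rw [List.head?_eq_getElem?, getElem?_pre]
  rcases Nat.eq_zero_or_pos m with rfl | h
  · simp
  · rw [if_pos h, if_neg h.ne']

lemma lim_id (O : X) : Lim (fun s => s) O O := ⟨id, tendsto_id, fun _ => rfl⟩

lemma lim_state {A O : X} {Q : ℕ → X} {i b : List Bool → List Bool}
    {t : Bool → List Bool → List Bool} (hi : Lim i O (Q 0))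
    (ht : ∀ n, Lim (t (A n)) (J (Q n) O) (Q (n + 1)))
    (hb : ∀ n, Lim b (J (Q n) O) fun _ => A n) (n : ℕ) :
    Lim (fun s => state i b t s n) O (Q n) := by
  induction n with
  | zero => exact hi
  | succ n ih =>
    have hj := ih.join (lim_id O)
    obtain ⟨m₁, hm₁, h₁⟩ := (hb n).comp hj
    obtain ⟨m₂, hm₂, h₂⟩ := (ht n).comp hj
    refine ⟨fun k => if m₁ k = 0 then 0 else m₂ k, tendsto_atTop.2 fun N => ?_, fun k => ?_⟩
    · filter_upwards [hm₁.eventually_gt_atTop 0, hm₂.eventually_ge_atTop N] with k h1 h2
      rw [if_neg h1.ne']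
      exact h2
    · have e₁ := h₁ k
      have e₂ := h₂ k
      simp only at e₁ e₂ ⊢
      rw [state_succ, e₁, head?_pre]
      by_cases h : m₁ k = 0
      · simp [h]
      · simp only [h, if_false]
        exact e₂

lemma table_one {ι : Type} (D : ι → X) (N : ℕ) (b : ι → Bool)
    (h : ∀ i i', pre (D i) N = pre (D i') N → b i = b i') :
    ULe (fun (i : ι) (_ : ℕ) => b i) D := by
  classical
  have hfin : {s : List Bool | ∃ i, pre (D i) N = s ∧ b i = true}.Finite :=
    (List.finite_length_eq Bool N).subset fun s ⟨i, hi, _⟩ => by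
      show s.length = N
      rw [← hi, length_pre]
  have hc : ∀ L : List (List Bool), Primrec fun s : List Bool => decide (s ∈ L) := by
    intro L
    induction L with
    | nil => exact (Primrec.const false).of_eq fun s => by simp
    | cons a L ih =>
      refine ((Primrec.dom_bool₂ or).comp
        (Primrec.eq.decide.comp Primrec.id (Primrec.const a)) ih).of_eq fun s => ?_
      simp
  refine ule_of_use (fun s _ => decide (s.take N ∈ hfin.toFinset.toList))
    ((hc _).comp (Primrec.list_take.comp (Primrec.const N) Primrec.fst)).to_comp (fun _ => N)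
    (Computable.const N) fun i k n hk => ?_
  rw [take_pre, min_eq_left hk]
  cases hb : b i with
  | true => simpa using ⟨i, rfl, hb⟩
  | false =>
    simp only [Finset.mem_toList, Finite.mem_toFinset, mem_ofPred_eq, decide_eq_false_iff_not]
    rintro ⟨i', h1, h2⟩
    rw [h i' i h1, hb] at h2
    exact absurd h2 (by simp)

lemma merge {ι : Type} (E : ι → X) (n₀ : ℕ) (Ds : List (ι → X)) (h : ∀ D ∈ Ds, ULe D E) :
    ∃ (D : ι → X) (N : ℕ), ULe D E ∧
      ∀ i i', pre (D i) N = pre (D i') N → ∀ D' ∈ Ds, pre (D' i) n₀ = pre (D' i') n₀ := by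
  induction Ds with
  | nil => exact ⟨E, 0, ULe.refl E, fun _ _ _ _ h => absurd h (by simp)⟩
  | cons D₀ Ds ih =>
    obtain ⟨D, N, hD, hN⟩ := ih fun D hD => h D (List.mem_cons_of_mem _ hD)
    refine ⟨fun i => J (D₀ i) (D i), 2 * (n₀ + N), (h D₀ List.mem_cons_self).join hD,
      fun i i' e D' hD' => ?_⟩
    rw [pre_eq_iff] at e
    rcases List.mem_cons.1 hD' with rfl | hD'
    · refine pre_eq_iff.2 fun j hj => ?_
      simpa using e (2 * j) (by omega)
    · refine hN i i' (pre_eq_iff.2 fun j hj => ?_) D' hD'
      simpa using e (2 * j + 1) (by omega)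

end Iter

theorem iterStmt : IterStmt := by
  rintro A O Q ⟨i, hi, hi'⟩ hs ⟨b, hb, hb'⟩
  choose t ht ht' using hs
  have hl := Iter.lim_state (A := A) (b := b) (t := t) hi' (fun n => ht' (A n) ⟨n, rfl⟩) hb'
  have key : ∀ n, Lim (fun s => b (jl (Iter.state i b t s n) s)) O fun _ => A n := fun n =>
    (hb' n).comp ((hl n).join (Iter.lim_id O))
  refine (ule_of_opt (A := fun _ : Unit => A) (B := fun _ => O)
    (fun s n => (b (jl (Iter.state i b t s n) s)).head?) ?_ (fun _ k n v hv => ?_)
    fun _ n => ?_).le ()
  · exact Primrec.list_head?.to_comp.comp (hb.comp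
      (primrec_jl.to_comp.comp (Iter.computable_state hi hb ht) Computable.fst))
  · obtain ⟨m, -, hm⟩ := key n
    have e := hm k
    simp only at e hv
    rw [e, Iter.head?_pre] at hv
    split_ifs at hv
    exact (Option.some.inj hv).symm
  · obtain ⟨m, hm, hm'⟩ := key n
    obtain ⟨k, hk⟩ := (hm.eventually_gt_atTop 0).exists
    refine ⟨k, ?_⟩
    have e := hm' k
    simp only at e ⊢
    rw [e, Iter.head?_pre, if_neg hk.ne']
    rfl

theorem tableStmt : TableStmt := by
  intro ι E Ds n₀ b h hb
  obtain ⟨D, N, hD, hN⟩ := Iter.merge E n₀ Ds h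
  exact (Iter.table_one D N b fun i i' e => hb i i' (hN i i' e)).trans hD

end Crest.Agent.R292
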