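import Crest.Agent.R292.Defs

/-! Row 292: sections of residual sets (the easy half of the Kuratowski–Ulam theorem). -/

set_option autoImplicit false

namespace Crest.Agent.R292

open Filter Set TopologicalSpace

namespace KU

theorem section_dense {Y Z : Type} [TopologicalSpace Y] [TopologicalSpace Z]
    [SecondCountableTopology Y] {O : Set (Y × Z)} (ho : IsOpen O) (hd : Dense O) :
    ∀ᶠ y in residual Z, ∀ᶠ x in residual Y, (x, y) ∈ O := by
  have h1 : ∀ᶠ y in residual Z, ∀ V ∈ countableBasis Y, y ∈ Prod.snd '' (O ∩ V ×ˢ univ) := by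
    rw [eventually_countable_ball (countable_countableBasis Y)]
    intro V hV
    have hVo : IsOpen V := isOpen_of_mem_countableBasis hV
    have hVn : V.Nonempty := nonempty_of_mem_countableBasis hV
    refine residual_of_dense_open (isOpenMap_snd _ (ho.inter (hVo.prod isOpen_univ))) ?_
    rw [dense_iff_inter_open]
    intro U hU hUn
    obtain ⟨z, hz1, hz2⟩ := hd.inter_open_nonempty (V ×ˢ U) (hVo.prod hU) (hVn.prod hUn)
    exact ⟨z.2, hz1.2, z, ⟨hz2, hz1.1, mem_univ _⟩, rfl⟩
  filter_upwards [h1] with y hy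
  refine residual_of_dense_open (ho.preimage (Continuous.prodMk_left y)) ?_
  rw [(isBasis_countableBasis Y).dense_iff]
  intro V hV _
  obtain ⟨z, ⟨hz1, hz2, -⟩, rfl⟩ := hy V hV
  exact ⟨z.1, hz2, hz1⟩

end KU

theorem kuStmt : KUStmt := by
  intro Γ hΓ
  obtain ⟨S, hSo, hSd, hSc, hSΓ⟩ := mem_residual_iff.1 hΓ
  have h : ∀ᶠ y in residual X, ∀ O ∈ S, ∀ᶠ x in residual X, (x, y) ∈ O :=
    (eventually_countable_ball hSc).2 fun O hO => KU.section_dense (hSo O hO) (hSd O hO)
  filter_upwards [h] with y hy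
  filter_upwards [(eventually_countable_ball hSc).2 hy] with x hx
  exact hSΓ hx

end Crest.Agent.R292
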