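import Crest.Agent.R292.Basic

/-! Row 292: the main theorem from the parts. -/

set_option autoImplicit false

namespace Crest.Agent.R292

open Filter Set

namespace Main

lemma conv_zero (A y : X) : conv A y 0 = (A 0 && y 0) := by simp [conv]

lemma conv_succ (A y : X) (m : ℕ) :
    conv A y (m + 1) = xor (A 0 && y (m + 1)) (conv (sh A) y m) := by
  unfold conv
  rw [List.range_succ_eq_map (n := m + 1), List.map_cons, List.foldr_cons, List.map_map]
  congr 2
  refine List.map_congr_left fun i _ => ?_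
  simp [sh]

lemma conv_xr (A y y' : X) : conv A (xr y y') = xr (conv A y) (conv A y') := by
  funext m
  induction m generalizing A with
  | zero =>
    simp only [conv_zero, xr]
    cases A 0 <;> simp
  | succ m ih =>
    rw [xr_apply, conv_succ, conv_succ, conv_succ, ih, xr_apply, xr_apply]
    cases A 0 <;> cases y (m + 1) <;> cases y' (m + 1) <;> cases conv (sh A) y m <;>
      cases conv (sh A) y' m <;> rfl

lemma conv_low {y : X} {j : ℕ} (hy : ∀ i < j, y i = false) (A : X) (m : ℕ) (hm : m < j) :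
    conv A y m = false := by
  induction m generalizing A with
  | zero => rw [conv_zero, hy 0 hm, Bool.and_false]
  | succ m ih => rw [conv_succ, hy _ hm, ih _ (by omega), Bool.and_false]; rfl

lemma conv_at {y : X} {j : ℕ} (hy : ∀ i < j, y i = false) (hj : y j = true) (A : X) :
    conv A y j = A 0 := by
  cases j with
  | zero => rw [conv_zero, hj, Bool.and_true]
  | succ j => rw [conv_succ, hj, conv_low hy _ _ (by omega), Bool.and_true, Bool.xor_false]

lemma isMeagre_of_countable {S : Set X} (hS : S.Countable) : IsMeagre S := by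
  rw [← biUnion_of_singleton S]
  refine isMeagre_biUnion hS fun x _ => ?_
  refine residual_of_dense_open isOpen_compl_singleton (dense_iff_inter_open.2 fun U hU ⟨y, hy⟩ => ?_)
  obtain ⟨k, hk⟩ := exists_cyl_subset hU hy
  refine ⟨Function.update y k (!x k), hk fun i hi => Function.update_of_ne hi.ne _ _, fun h => ?_⟩
  have := congrFun (mem_singleton_iff.1 h) k
  simp at this

lemma tr_ule {Γ : Set (X × X)} {F₁ F₂ L : X → X} (h : Tr Γ F₁ F₂ L) {ι : Type}
    {x y y' z E : ι → X} (hz : ∀ i, xr (x i) (xr (L (y i)) (L (y' i))) = z i)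
    (h1 : ∀ i, (x i, y i) ∈ Γ) (h2 : ∀ i, (z i, y' i) ∈ Γ) (u1 : ULe (fun i => F₁ (x i)) E)
    (u2 : ULe (fun i => F₂ (y i)) E) (u3 : ULe (fun i => F₂ (y' i)) E) :
    ULe (fun i => F₁ (z i)) E := by
  obtain ⟨f, hf, h⟩ := h
  refine ULe.trans ⟨f, hf, fun i => ?_⟩ ((u1.join u2).join u3)
  have := h (x i) (y i) (y' i) (h1 i) (by rw [hz]; exact h2 i)
  rwa [hz] at this

lemma back_ule {Γ : Set (X × X)} {F₁ F₂ : X → X} (h : Back Γ F₁ F₂) {ι : Type}
    {x y x' z E : ι → X} (hz : ∀ i, xr (y i) (xr (x i) (x' i)) = z i)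
    (h1 : ∀ i, (x i, y i) ∈ Γ) (h2 : ∀ i, (x' i, z i) ∈ Γ) (u1 : ULe (fun i => F₁ (x i)) E)
    (u2 : ULe (fun i => F₂ (y i)) E) (u3 : ULe (fun i => F₁ (x' i)) E) :
    ULe (fun i => F₂ (z i)) E := by
  obtain ⟨f, hf, h⟩ := h
  refine ULe.trans ⟨f, hf, fun i => ?_⟩ ((u1.join u2).join u3)
  have := h (x i) (y i) (x' i) (h1 i) (by rw [hz]; exact h2 i)
  rwa [hz] at this

lemma rem_list (hR : RemStmt) (B : X) (Ss : List (Set X)) (hS : ∀ S ∈ Ss, ¬ IsMeagre S) (C : X)
    (H : ∀ D, Le C D → (∀ S ∈ Ss, ∃ w ∈ S, Le w D) → Le B D) : Le B C := by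
  induction Ss generalizing C with
  | nil => exact H C (Le.refl C) fun S h => absurd h List.not_mem_nil
  | cons S Ss ih =>
    refine hR S B C (hS S List.mem_cons_self) fun a ha => ?_
    refine ih (fun S' h => hS S' (List.mem_cons_of_mem _ h)) _ fun D hD hw => ?_
    refine H D ((Le.left _ _).trans hD) fun S' h => ?_
    rcases List.mem_cons.1 h with rfl | h
    · exact ⟨a, ha, (Le.right _ _).trans hD⟩
    · exact hw S' h

lemma exists_net (u : X) (k l : ℕ) : ∃ xs : List X, (∀ x ∈ xs, x ∈ cyl u k) ∧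
    ∀ x ∈ cyl u k, ∃ x' ∈ xs, x' ∈ cyl x l := by
  have hfin : ((fun x => pre x l) '' cyl u k).Finite :=
    (List.finite_length_eq Bool l).subset (by rintro _ ⟨x, -, rfl⟩; exact length_pre x l)
  classical
  have hch : ∀ s : List Bool, ∃ x ∈ cyl u k, s ∈ (fun x => pre x l) '' cyl u k → pre x l = s := by
    intro s
    by_cases hs : s ∈ (fun x => pre x l) '' cyl u k
    · obtain ⟨x, h1, h2⟩ := hs
      exact ⟨x, h1, fun _ => h2⟩
    · exact ⟨u, self_mem_cyl u k, fun h => absurd h hs⟩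
  choose φ h1 h2 using hch
  refine ⟨hfin.toFinset.toList.map φ, fun x hx => ?_, fun x hx => ⟨φ (pre x l),
    List.mem_map_of_mem ?_, mem_cyl_iff_pre.2 (h2 _ (mem_image_of_mem _ hx))⟩⟩
  · obtain ⟨s, -, rfl⟩ := List.mem_map.1 hx
    exact h1 s
  · rw [Finset.mem_toList, Finite.mem_toFinset]
    exact mem_image_of_mem _ hx

/-- The algorithm that reads `A` from finitely many values of `F₁` and `F₂`. -/
lemma alg (hI : IterStmt) (hTab : TableStmt) {Γ : Set (X × X)} {F₁ F₂ : X → X} {A O : X}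
    (T0 : Tr Γ F₁ F₂ id) (T1 : Tr Γ F₁ F₂ sh) (T2 : Tr Γ F₁ F₂ (conv A)) (Bk : Back Γ F₁ F₂)
    {y₁ y₂ y w : X} {h : ℕ → X} (ws : List X) (n₀ : ℕ)
    (h0 : h 0 = xr (conv A y₁) (conv A y₂))
    (hs : ∀ n m, h (n + 1) m = xor (h n (m + 1)) (A n && xor (y₁ (m + 1)) (y₂ (m + 1))))
    (o1 : Le (F₂ y₁) O) (o2 : Le (F₂ y₂) O) (o3 : Le (F₂ y) O)
    (ow : ∀ w' ∈ w :: ws, Le (F₁ w') O)
    (hΓ : ∀ w' ∈ w :: ws, ∀ y', (y' = y₁ ∨ y' = y₂ ∨ y' = y ∨ ∃ n, y' = xr y (h n)) →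
      (w', y') ∈ Γ ∧ ∀ n, (xr w' (h n), y') ∈ Γ ∧ (xr w' (sh (h n)), y') ∈ Γ)
    (hbit : ∀ n n', (∀ w' ∈ ws, pre (F₁ (xr w' (h n))) n₀ = pre (F₁ (xr w' (h n'))) n₀) →
      A n = A n') : Le A O := by
  have hw := hΓ w List.mem_cons_self
  have g1 := hw y₁ (Or.inl rfl)
  have g2 := hw y₂ (Or.inr (Or.inl rfl))
  have g3 := hw y (Or.inr (Or.inr (Or.inl rfl)))
  have g4 := fun n => hw (xr y (h n)) (Or.inr (Or.inr (Or.inr ⟨n, rfl⟩)))
  have o4 := ow w List.mem_cons_self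
  have bk : ∀ {ι : Type} (φ : ι → ℕ) {E : ι → X}, ULe (fun _ => O) E →
      ULe (fun i => F₁ (xr w (h (φ i)))) E → ULe (fun i => F₂ (xr y (h (φ i)))) E :=
    fun φ E hO hP => back_ule Bk (x := fun i => xr w (h (φ i))) (y := fun _ => y) (x' := fun _ => w)
      (fun i => by rw [xr_comm w, xr_xr_cancel]) (fun i => (g3.2 _).1) (fun i => (g4 _).1) hP
      (o3.ule.trans hO) (o4.ule.trans hO)
  refine hI A O (fun n => F₂ (xr y (h n))) ?_ (fun v => ?_) ?_
  · refine (bk (ι := Unit) (fun _ => 0) (ULe.refl _) ?_).le ()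
    exact tr_ule T2 (x := fun _ => w) (y := fun _ => y₁) (y' := fun _ => y₂) (fun _ => by rw [h0])
      (fun _ => g1.1) (fun _ => (g2.2 0).1) o4.ule o1.ule o2.ule
  · have hO : ULe (fun _ : {n : ℕ // A n = v} => O) fun n => J (F₂ (xr y (h n.1))) O :=
      ULe.right _ _
    have hP : ULe (fun n : {n : ℕ // A n = v} => F₁ (xr w (sh (h n.1))))
        fun n => J (F₂ (xr y (h n.1))) O :=
      tr_ule T1 (x := fun _ => w) (y := fun n => xr y (h n.1)) (y' := fun _ => y)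
        (fun n => by
          congr 1
          funext m
          simp only [xr, sh]
          cases y (m + 1) <;> simp)
        (fun n => (g4 _).1) (fun n => (g3.2 _).2) (o4.ule.trans hO) (ULe.left _ _) (o3.ule.trans hO)
    refine bk (fun n : {n : ℕ // A n = v} => n.1 + 1) hO ?_
    cases v
    · have e : ∀ n : {n : ℕ // A n = false}, h (n.1 + 1) = sh (h n.1) := fun n => by
        funext m
        rw [hs, n.2]
        simp [sh]
      simp only [e]
      exact hP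
    · exact tr_ule T1 (x := fun n => xr w (sh (h n.1))) (y := fun _ => y₁) (y' := fun _ => y₂)
        (fun n => by
          rw [xr_assoc]
          congr 1
          funext m
          rw [hs, n.2]
          simp [xr, sh])
        (fun n => (g1.2 _).2) (fun n => (g2.2 _).1) hP (o1.ule.trans hO) (o2.ule.trans hO)
  · refine hTab ℕ _ (ws.map fun w' n => F₁ (xr w' (h n))) n₀ A (fun D hD => ?_) fun n n' hD =>
      hbit n n' fun w' hw' => hD _ (List.mem_map_of_mem hw')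
    obtain ⟨w', hw', rfl⟩ := List.mem_map.1 hD
    have hw'' := hΓ w' (List.mem_cons_of_mem _ hw')
    have hO : ULe (fun _ : ℕ => O) fun n => J (F₂ (xr y (h n))) O := ULe.right _ _
    exact tr_ule T0 (x := fun _ => w') (y := fun n => xr y (h n)) (y' := fun _ => y)
      (fun n => by rw [id, id, xr_comm y, xr_xr_cancel])
      (fun n => (hw'' _ (Or.inr (Or.inr (Or.inr ⟨n, rfl⟩)))).1)
      (fun n => ((hw'' _ (Or.inr (Or.inr (Or.inl rfl)))).2 n).1)
      ((ow w' (List.mem_cons_of_mem _ hw')).ule.trans hO) (ULe.left _ _) (o3.ule.trans hO)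

lemma xr_mem_cyl {x u h : X} {k : ℕ} (hx : x ∈ cyl u k) (hh : ∀ i < k, h i = false) :
    xr x h ∈ cyl u k := fun i hi => by rw [xr_apply, hh i hi, Bool.xor_false, hx i hi]

lemma ev_xr {P : X → Prop} {u h : X} {k : ℕ} (hP : ∀ᶠ x in residual X, x ∈ cyl u k → P x)
    (hh : ∀ i < k, h i = false) : ∀ᶠ x in residual X, x ∈ cyl u k → P (xr x h) :=
  ((tendsto_xr_residual h).eventually hP).mono fun _ hx hu => hx (xr_mem_cyl hu hh)

end Main

open Main in
theorem mainStmt_of (hB : BorelStmt) (hC : ChunkStmt) (hT : TestStmt) (hI : IterStmt)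
    (hTab : TableStmt) (hK : KUStmt) (hR : RemStmt) : MainStmt := by
  intro p hp B
  set A := p B with hA
  obtain ⟨F, hFm, hF⟩ := hB p hp
  obtain ⟨F₁, F₂, u, v, k, Γ, hm, hΓ, hS1, hS2, T0, T1, T2, Bk⟩ := hC p A F hp hFm hF
  obtain ⟨j, l, n₀, C, hkj, hkl, hCr, hTest⟩ := hT F₁ u k hm fun x hx l c hc => by
    obtain ⟨d, -, hd⟩ := hp.surj c
    refine not_isMeagre_inter (P := fun x' => F₁ x' = c) (hS1 x hx l)
      (hc.mono fun x' h1 h2 => h1 h2.2) ((isMeagre_of_countable (countable_below d)).mono ?_)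
    rintro x' ⟨⟨h1, -⟩, h2⟩
    have h3 : p (J x' A) = c := h1.symm.trans h2
    exact (Le.left _ _).trans ((hp.le_iff _ _).1 (h3 ▸ hd))
  set ΓV : X → Prop := fun y => ∀ᶠ x in residual X, x ∈ cyl u k → (x, y) ∈ Γ with hΓV
  have hV : ∀ᶠ y in residual X, y ∈ cyl v k → ΓV y :=
    (hK _ hΓ).mono fun y hy hv => hy.mono fun x hx hu => hx hu hv
  -- the first two auxiliary points
  refine hR _ B A (not_isMeagre_inter (P := ΓV) (hS2 v (self_mem_cyl v k) k)
    (hV.mono fun y h1 h2 => h1 h2.2)) ?_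
  rintro y₁ ⟨⟨s1, c1⟩, v1⟩
  have c1' : xr y₁ (fun i => decide (i = j)) ∈ cyl v k :=
    xr_mem_cyl c1 fun i hi => decide_eq_false (by omega)
  refine hR _ B _ (not_isMeagre_inter (P := ΓV) (hS2 _ c1' (j + 1))
    (hV.mono fun y h1 h2 => h1 (cyl_subset c1' (by omega) h2.2))) ?_
  rintro y₂ ⟨⟨s2, c2⟩, v2⟩
  have hg0 : ∀ i < j, xr y₁ y₂ i = false := fun i hi => by
    rw [xr_apply, c2 i (by omega), xr_apply, decide_eq_false (by omega : ¬ i = j)]
    simp
  have hg1 : xr y₁ y₂ j = true := by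
    rw [xr_apply, c2 j (by omega), xr_apply]
    simp
  set h : ℕ → X := fun n => conv (fun i => A (i + n)) (xr y₁ y₂) with hh
  have hlow : ∀ n, ∀ i < j, h n i = false := fun n i hi => conv_low hg0 _ i hi
  have hlow1 : ∀ n, ∀ i < k, h n i = false := fun n i hi => hlow n i (by omega)
  have hlow2 : ∀ n, ∀ i < k, sh (h n) i = false := fun n i hi => hlow n _ (by omega)
  -- the base point in the second coordinate
  refine hR _ B _ (not_isMeagre_inter (P := fun y => ΓV y ∧ ∀ n, ΓV (xr y (h n)))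
    (hS2 v (self_mem_cyl v k) k) ?_) ?_
  · filter_upwards [hV, eventually_countable_forall.2 fun n => ev_xr hV (hlow1 n)] with y h1 h2 h3
    exact ⟨h1 h3.2, fun n => h2 n h3.2⟩
  rintro y ⟨⟨s3, -⟩, v3, v4⟩
  set Gd : X → Prop := fun w => (∀ y', (y' = y₁ ∨ y' = y₂ ∨ y' = y ∨ ∃ n, y' = xr y (h n)) →
    (w, y') ∈ Γ ∧ ∀ n, (xr w (h n), y') ∈ Γ ∧ (xr w (sh (h n)), y') ∈ Γ) ∧ ∀ n, xr w (h n) ∈ C with hGd
  have hGdr : ∀ᶠ w in residual X, w ∈ cyl u k → Gd w := by
    have one : ∀ y', ΓV y' → ∀ᶠ w in residual X, w ∈ cyl u k →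
        (w, y') ∈ Γ ∧ ∀ n, (xr w (h n), y') ∈ Γ ∧ (xr w (sh (h n)), y') ∈ Γ := by
      intro y' hy'
      filter_upwards [hy', eventually_countable_forall.2 fun n => ev_xr hy' (hlow1 n),
        eventually_countable_forall.2 fun n => ev_xr hy' (hlow2 n)] with w h1 h2 h3 hw
      exact ⟨h1 hw, fun n => ⟨h2 n hw, h3 n hw⟩⟩
    filter_upwards [one y₁ v1, one y₂ v2, one y v3,
      eventually_countable_forall.2 fun n => one _ (v4 n),
      eventually_countable_forall.2 fun n => (tendsto_xr_residual (h n)).eventually hCr]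
      with w h1 h2 h3 h4 h5 hw
    refine ⟨?_, h5⟩
    rintro y' (rfl | rfl | rfl | ⟨n, rfl⟩)
    exacts [h1 hw, h2 hw, h3 hw, h4 n hw]
  obtain ⟨xs, hxs, hnet⟩ := exists_net u k l
  refine rem_list hR B ((u :: xs).map fun x =>
    {w | w ∈ {x' | F₁ x' = p (J x' A)} ∩ cyl x l ∧ Gd w}) (fun S hS => ?_) _ fun D hD hW => ?_
  · obtain ⟨x, hx, rfl⟩ := List.mem_map.1 hS
    have hx' : x ∈ cyl u k := (List.mem_cons.1 hx).elim (fun e => e ▸ self_mem_cyl u k) (hxs x)
    exact not_isMeagre_inter (hS1 x hx' l) (hGdr.mono fun w h1 h2 => h1 (cyl_subset hx' hkl h2.2))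
  have hW' : ∀ x, ∃ w, x ∈ u :: xs → (F₁ w = p (J w A) ∧ w ∈ cyl x l) ∧ Gd w ∧ Le w D := by
    intro x
    by_cases hx : x ∈ u :: xs
    · obtain ⟨w, h1, h2⟩ := hW _ (List.mem_map_of_mem hx)
      exact ⟨w, fun _ => ⟨h1.1, h1.2, h2⟩⟩
    · exact ⟨x, fun h => absurd h hx⟩
  choose ω hω using hW'
  have hAD : Le A D := (((Le.left _ _).trans (Le.left _ _)).trans (Le.left _ _)).trans hD
  have up : ∀ a, Le a D → Le (p (J a A)) (p D) := fun a ha => (hp.le_iff _ _).2 (ha.join hAD)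
  have hω' : ∀ w ∈ ω u :: xs.map ω, F₁ w = p (J w A) ∧ Gd w ∧ Le w D := by
    intro w hw
    rw [← List.map_cons] at hw
    obtain ⟨x, hx, rfl⟩ := List.mem_map.1 hw
    exact ⟨(hω x hx).1.1, (hω x hx).2⟩
  refine (hp.le_iff _ _).1 (alg hI hTab T0 T1 T2 Bk (y₁ := y₁) (y₂ := y₂) (y := y) (w := ω u) (h := h)
    (xs.map ω) n₀ (conv_xr _ _ _) (fun n m => ?_) ?_ ?_ ?_ (fun w hw => ?_)
    (fun w hw => (hω' w hw).2.1.1) fun n n' hn => ?_)
  · have e : h n (m + 1) = xor (A n && xr y₁ y₂ (m + 1)) (h (n + 1) m) := by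
      have := conv_succ (fun i => A (i + n)) (xr y₁ y₂) m
      rw [Nat.zero_add] at this
      refine this.trans ?_
      congr 2
      funext i
      simp only [sh]
      congr 1
      omega
    rw [e, xr_apply]
    cases A n && xor (y₁ (m + 1)) (y₂ (m + 1)) <;> simp
  · exact (s1 : F₂ y₁ = _) ▸ up _ ((((Le.right _ _).trans (Le.left _ _)).trans (Le.left _ _)).trans hD)
  · exact (s2 : F₂ y₂ = _) ▸ up _ (((Le.right _ _).trans (Le.left _ _)).trans hD)
  · exact (s3 : F₂ y = _) ▸ up _ ((Le.right _ _).trans hD)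
  · exact (hω' w hw).1 ▸ up _ (hω' w hw).2.2
  · have := hTest {w | w ∈ xs.map ω} (fun x hx => ?_) (h n) (h n') (hlow n) (hlow n') fun w hw =>
      ⟨(hω' w (List.mem_cons_of_mem _ hw)).2.1.2 n, (hω' w (List.mem_cons_of_mem _ hw)).2.1.2 n',
        hn w hw⟩
    · have e : ∀ n, h n j = A n := fun n => (conv_at hg0 hg1 _).trans (by rw [Nat.zero_add])
      rwa [e, e] at this
    · obtain ⟨x', h1, h2⟩ := hnet x hx
      exact ⟨ω x', List.mem_map_of_mem h1, cyl_eq h2 ▸ (hω x' (List.mem_cons_of_mem _ h1)).1.2⟩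

end Crest.Agent.R292
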