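import Crest.Agent.R292.Basic

/-! Row 292: library reducibility gives a machine. -/

set_option autoImplicit false

namespace Crest.Agent.R292

open Filter Set Crest.LogicCS.Degrees

namespace NF1

/-- `g` is approximated by a computable procedure on the initial segments of `B`. -/
def Ap (B : X) (g : ℕ →. ℕ) : Prop :=
  ∃ h : List Bool → ℕ → Option ℕ, Computable₂ h ∧
    (∀ k n v, h (pre B k) n = some v → v ∈ g n) ∧
    ∀ n v, v ∈ g n → ∀ᶠ k in atTop, h (pre B k) n = some v

variable {B : X}

lemma ap_total {f : ℕ → ℕ} (hf : Computable f) : Ap B (fun n => Part.some (f n)) :=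
  ⟨fun _ n => some (f n), Computable.option_some.comp (hf.comp Computable.snd),
    fun _ _ _ h => by rw [← Option.some.inj h]; exact Part.mem_some _,
    fun _ _ h => Eventually.of_forall fun _ => by rw [Part.mem_some_iff.1 h]⟩

lemma mem_charFun (A : X) (n v : ℕ) : v ∈ charFun {n | A n = true} n ↔ v = cond (A n) 1 0 := by
  rw [charFun, Part.mem_some_iff]
  cases h : A n <;> simp [h]

lemma ap_oracle : Ap B (charFun {n | B n = true}) := by
  refine ⟨fun s n => (s[n]?).map fun b => cond b 1 0, ?_, fun k n v h => ?_, fun n v h => ?_⟩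
  · exact Computable.option_map (Computable.list_getElem?.comp Computable.fst Computable.snd)
      (Computable.cond Computable.snd (Computable.const 1) (Computable.const 0)).to₂
  · rw [mem_charFun]
    simp only [getElem?_pre] at h
    split_ifs at h
    · exact (Option.some.inj h).symm
    · cases h
  · rw [mem_charFun] at h
    filter_upwards [eventually_gt_atTop n] with k hk
    rw [getElem?_pre_of_lt hk, h]
    rfl

lemma ap_pair {f g : ℕ →. ℕ} (hf : Ap B f) (hg : Ap B g) :
    Ap B fun n => (Nat.pair <$> f n <*> g n) := by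
  obtain ⟨a, ca, sa, ta⟩ := hf
  obtain ⟨b, cb, sb, tb⟩ := hg
  have hm : ∀ n v, v ∈ (Nat.pair <$> f n <*> g n) ↔ ∃ x ∈ f n, ∃ y ∈ g n, Nat.pair x y = v := by
    intro n v
    simp [Seq.seq]
  refine ⟨fun s n => (a s n).bind fun x => (b s n).map fun y => Nat.pair x y, ?_,
    fun k n v h => ?_, fun n v h => ?_⟩
  · exact Computable.option_bind ca (Computable.option_map (cb.comp (Computable.fst.comp
      Computable.fst) (Computable.snd.comp Computable.fst))
      (Primrec₂.natPair.to_comp.comp (Computable.snd.comp Computable.fst) Computable.snd).to₂).to₂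
  · simp only [Option.bind_eq_some_iff, Option.map_eq_some_iff] at h
    obtain ⟨x, hx, y, hy, e⟩ := h
    exact (hm n v).2 ⟨x, sa _ _ _ hx, y, sb _ _ _ hy, e⟩
  · obtain ⟨x, hx, y, hy, e⟩ := (hm n v).1 h
    filter_upwards [ta _ _ hx, tb _ _ hy] with k h1 h2
    simp [h1, h2, e]

lemma ap_comp {f g : ℕ →. ℕ} (hf : Ap B f) (hg : Ap B g) : Ap B fun n => g n >>= f := by
  obtain ⟨a, ca, sa, ta⟩ := hf
  obtain ⟨b, cb, sb, tb⟩ := hg
  refine ⟨fun s n => (b s n).bind (a s), ?_, fun k n v h => ?_, fun n v h => ?_⟩
  · exact Computable.option_bind cb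
      (ca.comp (Computable.fst.comp Computable.fst) Computable.snd).to₂
  · simp only [Option.bind_eq_some_iff] at h
    obtain ⟨x, hx, e⟩ := h
    exact Part.mem_bind_iff.2 ⟨x, sb _ _ _ hx, sa _ _ _ e⟩
  · obtain ⟨x, hx, e⟩ := Part.mem_bind_iff.1 h
    filter_upwards [tb _ _ hx, ta _ _ e] with k h1 h2
    simp [h1, h2]

lemma ap_prec {f g : ℕ →. ℕ} (hf : Ap B f) (hg : Ap B g) :
    Ap B fun p => Nat.rec (f p.unpair.1)
      (fun y IH => IH.bind fun i => g (Nat.pair p.unpair.1 (Nat.pair y i))) p.unpair.2 := by
  obtain ⟨a, ca, sa, ta⟩ := hf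
  obtain ⟨b, cb, sb, tb⟩ := hg
  refine ⟨fun s p => Nat.rec (a s p.unpair.1)
    (fun y IH => IH.bind fun i => b s (Nat.pair p.unpair.1 (Nat.pair y i))) p.unpair.2, ?_,
    fun k p => ?_, fun p => ?_⟩
  · have u1 : Computable fun q : List Bool × ℕ => q.2.unpair.1 :=
      Computable.fst.comp (Computable.unpair.comp Computable.snd)
    refine Computable.nat_rec (f := fun q : List Bool × ℕ => q.2.unpair.2)
      (g := fun q => a q.1 q.2.unpair.1)
      (h := fun q r => r.2.bind fun i => b q.1 (Nat.pair q.2.unpair.1 (Nat.pair r.1 i)))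
      (Computable.snd.comp (Computable.unpair.comp Computable.snd))
      (ca.comp Computable.fst u1) ?_
    refine Computable.option_bind (Computable.snd.comp Computable.snd) ?_
    exact (cb.comp (Computable.fst.comp (Computable.fst.comp Computable.fst))
      (Primrec₂.natPair.to_comp.comp (u1.comp (Computable.fst.comp Computable.fst))
        (Primrec₂.natPair.to_comp.comp
          (Computable.fst.comp (Computable.snd.comp Computable.fst)) Computable.snd))).to₂
  · beta_reduce
    induction p.unpair.2 with
    | zero => exact sa _ _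
    | succ y ih =>
      intro v h
      obtain ⟨x, hx, e⟩ := Option.bind_eq_some_iff.1 h
      exact Part.mem_bind_iff.2 ⟨x, ih _ hx, sb _ _ _ e⟩
  · beta_reduce
    induction p.unpair.2 with
    | zero => exact ta _
    | succ y ih =>
      intro v h
      obtain ⟨x, hx, e⟩ := Part.mem_bind_iff.1 h
      filter_upwards [ih _ hx, tb _ _ e] with k h1 h2
      exact Option.bind_eq_some_iff.2 ⟨x, h1, h2⟩

/-- The state of a bounded search: `0` while searching, `n + 1` after finding `n`. -/
def st (t : ℕ → Option ℕ) (K : ℕ) : Option ℕ :=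
  Nat.rec (some 0) (fun y IH => IH.bind fun c =>
    Nat.casesOn c ((t y).map fun m => Nat.casesOn m (y + 1) fun _ => 0) fun c' => some (c' + 1)) K

lemma st_succ (t : ℕ → Option ℕ) (K : ℕ) : st t (K + 1) = (st t K).bind fun c =>
    Nat.casesOn c ((t K).map fun m => Nat.casesOn m (K + 1) fun _ => 0)
      fun c' => some (c' + 1) := rfl

lemma st_sound (t : ℕ → Option ℕ) (K : ℕ) :
    (st t K = some 0 → ∀ y < K, ∃ m, t y = some (m + 1)) ∧
      ∀ n, st t K = some (n + 1) → t n = some 0 ∧ ∀ y < n, ∃ m, t y = some (m + 1) := by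
  induction K with
  | zero => exact ⟨fun _ y hy => absurd hy (Nat.not_lt_zero _), fun n h => by cases h⟩
  | succ K ih =>
    rw [st_succ]
    rcases hK : st t K with _ | _ | c
    · simp
    · rcases hm : t K with _ | _ | m
      · simp
      · refine ⟨fun h => by simp at h, fun n h => ?_⟩
        obtain rfl : K = n := by simpa using h
        exact ⟨hm, ih.1 hK⟩
      · refine ⟨fun _ y hy => ?_, fun n h => by simp at h⟩
        rcases Nat.lt_succ_iff_lt_or_eq.1 hy with h1 | rfl
        · exact ih.1 hK y h1
        · exact ⟨m, hm⟩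
    · refine ⟨fun h => by simp at h, fun n h => ?_⟩
      obtain rfl : c = n := by simpa using h
      exact ih.2 _ hK

lemma st_complete {t : ℕ → Option ℕ} {n : ℕ} (h0 : t n = some 0)
    (h1 : ∀ y < n, ∃ m, t y = some (m + 1)) (K : ℕ) :
    st t K = some (if n < K then n + 1 else 0) := by
  induction K with
  | zero => rfl
  | succ K ih =>
    rw [st_succ, ih]
    rcases lt_trichotomy n K with h | rfl | h
    · rw [if_pos h, if_pos (by omega)]; rfl
    · rw [if_neg (lt_irrefl _), if_pos (by omega), h0]; rfl
    · obtain ⟨m, hm⟩ := h1 K h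
      rw [if_neg (by omega), if_neg (by omega), hm]; rfl

def stA (y m : ℕ) : ℕ := Nat.casesOn m (y + 1) fun _ => 0

def stB (o : Option ℕ) (c : ℕ) : Option ℕ := Nat.casesOn c o fun c' => some (c' + 1)

lemma c_stA : Computable₂ stA :=
  Computable.nat_casesOn (h := fun _ _ => 0) Computable.snd (Computable.succ.comp Computable.fst)
    (Computable.const 0).to₂

lemma c_stB : Computable₂ stB :=
  Computable.nat_casesOn (h := fun _ c' => some (c' + 1)) Computable.snd Computable.fst
    (Computable.option_some.comp (Computable.succ.comp Computable.snd)).to₂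

lemma c_map {α : Type} [Primcodable α] {o : α → Option ℕ} {y : α → ℕ} (co : Computable o)
    (cy : Computable y) : Computable fun q => (o q).map (stA (y q)) :=
  Computable.option_map co (c_stA.comp (cy.comp Computable.fst) Computable.snd).to₂

lemma c_bind {α : Type} [Primcodable α] {o o' : α → Option ℕ} (co : Computable o)
    (co' : Computable o') : Computable fun q => (o' q).bind (stB (o q)) :=
  Computable.option_bind co' (c_stB.comp (co.comp Computable.fst) Computable.snd).to₂

lemma st_comp' {α : Type} [Primcodable α] {t : α → ℕ → Option ℕ} {K : α → ℕ} (ct : Computable₂ t)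
    (cK : Computable K) : Computable fun q => st (t q) (K q) := by
  have c1 : Computable fun p : α × ℕ × Option ℕ => p.2.1 := Computable.fst.comp Computable.snd
  have c2 : Computable fun p : α × ℕ × Option ℕ => p.2.2 := Computable.snd.comp Computable.snd
  have c3 : Computable fun p : α × ℕ × Option ℕ => t p.1 p.2.1 := ct.comp Computable.fst c1
  have c6 := c_bind (c_map c3 c1) c2
  exact (Computable.nat_rec cK (Computable.const (some 0))
    (h := fun (q : α) (r : ℕ × Option ℕ) => r.2.bind (stB ((t q r.1).map (stA r.1))))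
    c6).of_eq fun _ => rfl

lemma st_comp {b : List Bool → ℕ → Option ℕ} (cb : Computable₂ b) :
    Computable fun q : List Bool × ℕ => st (fun y => b q.1 (Nat.pair q.2 y)) q.1.length :=
  st_comp' (t := fun q : List Bool × ℕ => fun y => b q.1 (Nat.pair q.2 y))
    (cb.comp (Computable.fst.comp Computable.fst)
      (Primrec₂.natPair.to_comp.comp (Computable.snd.comp Computable.fst) Computable.snd))
    (Computable.list_length.comp Computable.fst)

lemma ap_rfind {f : ℕ →. ℕ} (hf : Ap B f) :
    Ap B fun a => Nat.rfind fun n => (fun m => decide (m = 0)) <$> f (Nat.pair a n) := by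
  obtain ⟨b, cb, sb, tb⟩ := hf
  have hm : ∀ a n, n ∈ (Nat.rfind fun n => (fun m => decide (m = 0)) <$> f (Nat.pair a n)) ↔
      0 ∈ f (Nat.pair a n) ∧ ∀ y < n, ∃ m, m + 1 ∈ f (Nat.pair a y) := by
    intro a n
    refine Nat.mem_rfind.trans (and_congr (by simp) ⟨fun h y hy => ?_, fun h y hy => ?_⟩)
    · obtain ⟨m, h1, h2⟩ := (Part.mem_map_iff _).1 (h hy)
      cases m with
      | zero => simp at h2
      | succ m => exact ⟨m, h1⟩
    · obtain ⟨m, h1⟩ := h y hy
      exact (Part.mem_map_iff _).2 ⟨m + 1, h1, by simp⟩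
  refine ⟨fun s a => (st (fun y => b s (Nat.pair a y)) s.length).bind fun c =>
    Nat.casesOn c none some, ?_, fun k a n h => ?_, fun a n h => ?_⟩
  · exact Computable.option_bind (st_comp cb) (g := fun _ c => Nat.casesOn c none some)
      (Computable.nat_casesOn (h := fun _ c => some c) Computable.snd (Computable.const none)
        (Computable.option_some.comp Computable.snd).to₂).to₂
  · obtain ⟨c, hc, e⟩ := Option.bind_eq_some_iff.1 h
    cases c with
    | zero => cases e
    | succ c =>
      obtain rfl : c = n := Option.some.inj e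
      obtain ⟨h0, h1⟩ := (st_sound _ _).2 _ hc
      exact (hm a c).2 ⟨sb _ _ _ h0, fun y hy => (h1 y hy).imp fun m h => sb _ _ _ h⟩
  · obtain ⟨h0, h1⟩ := (hm a n).1 h
    have h2 : ∀ᶠ k in atTop, ∀ y ∈ Set.Iio n, ∃ m, b (pre B k) (Nat.pair a y) = some (m + 1) :=
      (eventually_all_finite (Set.finite_Iio n)).2 fun y hy => by
        obtain ⟨m, hm⟩ := h1 y hy
        exact (tb _ _ hm).mono fun k hk => ⟨m, hk⟩
    filter_upwards [tb _ _ h0, h2, eventually_gt_atTop n] with k e0 e1 e2
    rw [st_complete (t := fun y => b (pre B k) (Nat.pair a y)) e0 e1, length_pre, if_pos e2]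
    rfl

lemma ap_of {g : ℕ →. ℕ} (h : Nat.RecursiveIn {charFun {n | B n = true}} g) : Ap B g := by
  induction h with
  | zero => exact ap_total (Computable.const 0)
  | succ => exact ap_total Computable.succ
  | left => exact ap_total (Computable.fst.comp Computable.unpair)
  | right => exact ap_total (Computable.snd.comp Computable.unpair)
  | oracle g hg => rw [Set.mem_singleton_iff.1 hg]; exact ap_oracle
  | pair _ _ ih₁ ih₂ => exact ap_pair ih₁ ih₂
  | comp _ _ ih₁ ih₂ => exact ap_comp ih₁ ih₂
  | prec _ _ ih₁ ih₂ => exact ap_prec ih₁ ih₂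
  | rfind _ ih => exact ap_rfind ih

end NF1

theorem nf1Stmt : NF1Stmt := by
  intro A B h
  obtain ⟨a, ca, sa, ta⟩ := NF1.ap_of (RecursiveIn.iff_nat.1 h)
  refine (ule_of_opt (A := fun _ : Unit => A) (B := fun _ => B)
    (fun s n => (a s n).map fun v => decide (v = 1)) ?_ (fun _ k n v hv => ?_)
    fun _ n => ?_).le ()
  · exact Computable.option_map ca
      ((Primrec.eq.decide.to_comp).comp Computable.snd (Computable.const 1)).to₂
  · obtain ⟨x, hx, rfl⟩ := Option.map_eq_some_iff.1 hv
    rw [(NF1.mem_charFun A n x).1 (sa _ _ _ hx)]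
    cases A n <;> rfl
  · obtain ⟨k, hk⟩ := (ta n _ ((NF1.mem_charFun A n _).2 rfl)).exists
    exact ⟨k, by simp [hk]⟩

end Crest.Agent.R292
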