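import Crest.Agent.R292.Basic

/-! Row 292: a machine gives library reducibility. -/

set_option autoImplicit false

namespace Crest.Agent.R292

open Filter Set Crest.LogicCS.Degrees Encodable

namespace NF2

/-- Total functions recursive in `O`. -/
def Tot (O : Set (ℕ →. ℕ)) (g : ℕ → ℕ) : Prop := Nat.RecursiveIn O fun n => Part.some (g n)

variable {O : Set (ℕ →. ℕ)} {g h : ℕ → ℕ}

lemma Tot.of_eq (hg : Tot O g) (H : ∀ n, g n = h n) : Tot O h := by
  rwa [← funext H]

lemma Tot.comp (hg : Tot O g) (hh : Tot O h) : Tot O fun n => g (h n) :=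
  Nat.RecursiveIn.of_eq (Nat.RecursiveIn.comp hg hh) fun n => by simp

lemma Tot.pair (hg : Tot O g) (hh : Tot O h) : Tot O fun n => Nat.pair (g n) (h n) :=
  Nat.RecursiveIn.of_eq (Nat.RecursiveIn.pair hg hh) fun n => by simp [Seq.seq]

lemma Tot.of_computable (hg : Computable g) : Tot O g :=
  (Partrec.nat_iff.1 hg).recursiveIn

lemma Tot.rec (c : ℕ) {s : ℕ → ℕ → ℕ} (hs : Tot O fun p => s p.unpair.1 p.unpair.2) :
    Tot O fun n => Nat.rec c s n := by
  have h0 : Tot O fun _ => c := Tot.of_computable (Computable.const c)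
  have h1 : Tot O fun p => s p.unpair.2.unpair.1 p.unpair.2.unpair.2 :=
    hs.comp (Tot.of_computable (Primrec.snd.comp Primrec.unpair).to_comp)
  have h2 : Tot O fun n => Nat.pair 0 n :=
    Tot.of_computable (Primrec₂.natPair.comp (Primrec.const 0) Primrec.id).to_comp
  refine Nat.RecursiveIn.of_eq (Nat.RecursiveIn.comp (Nat.RecursiveIn.prec h0 h1) h2) fun n => ?_
  simp only [Part.bind_eq_bind, Part.bind_some, Nat.unpair_pair]
  induction n with
  | zero => rfl
  | succ n ih => simp [ih]

lemma Tot.find (hg : Tot O g) (H : ∀ a, ∃ k, g (Nat.pair a k) = 0) :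
    Tot O fun a => Nat.find (H a) := by
  refine Nat.RecursiveIn.of_eq (Nat.RecursiveIn.rfind hg) fun a => ?_
  rw [Part.eq_some_iff, Nat.mem_rfind]
  refine ⟨by simpa using Nat.find_spec (H a), fun {m} hm => ?_⟩
  simpa using Nat.find_min (H a) hm

/-- The value of the characteristic function. -/
def bit (B : X) (n : ℕ) : ℕ := cond (B n) 1 0

lemma charFun_eq (B : X) : charFun {n | B n = true} = fun n => Part.some (bit B n) := by
  funext n
  unfold charFun bit
  cases h : B n <;> simp [h]

lemma tot_bit (B : X) : Tot {charFun {n | B n = true}} (bit B) := by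
  unfold Tot
  rw [← charFun_eq]
  exact Nat.RecursiveIn.oracle _ rfl

/-- Decoding of strings. -/
def dec (n : ℕ) : List Bool := (decode (α := List Bool) n).getD []

lemma dec_encode (s : List Bool) : dec (encode s) = s := by simp [dec]

lemma primrec_dec : Primrec dec := Primrec.option_getD.comp Primrec.decode (Primrec.const [])

lemma tot_pre {B : X} (hB : Tot O (bit B)) : Tot O fun k => encode (pre B k) := by
  have hc : Computable fun q : ℕ => encode (dec q.unpair.2 ++ [decide (q.unpair.1 = 1)]) := by
    refine (Primrec.encode.comp (Primrec.list_append.comp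
      (primrec_dec.comp (Primrec.snd.comp Primrec.unpair))
      (Primrec.list_cons.comp ?_ (Primrec.const [])))).to_comp
    exact primrecPred_iff_primrec_decide.1
      (Primrec.eq.comp (Primrec.fst.comp Primrec.unpair) (Primrec.const 1))
  have h1 : Tot O fun p : ℕ => Nat.pair (bit B p.unpair.1) p.unpair.2 :=
    (hB.comp (Tot.of_computable (Primrec.fst.comp Primrec.unpair).to_comp)).pair
      (Tot.of_computable (Primrec.snd.comp Primrec.unpair).to_comp)
  have h2 : Tot O fun p : ℕ => encode (dec p.unpair.2 ++ [B p.unpair.1]) := by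
    refine ((Tot.of_computable hc).comp h1).of_eq fun p => ?_
    simp only [Nat.unpair_pair, bit]
    cases B p.unpair.1 <;> simp
  refine (Tot.rec (encode ([] : List Bool)) (s := fun y i => encode (dec i ++ [B y])) h2).of_eq
    fun k => ?_
  induction k with
  | zero => rfl
  | succ k ih => simp only [ih, dec_encode, pre_succ]

end NF2

open NF2

theorem nf2Stmt : NF2Stmt := by
  rintro A B ⟨f, hf, m, hm, hlim⟩
  have hP := tot_pre (tot_bit B)
  have hfd : Computable fun n => f (dec n) := hf.comp primrec_dec.to_comp
  have hu1 : Computable fun q : ℕ => q.unpair.1 := (Primrec.fst.comp Primrec.unpair).to_comp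
  have hu2 : Computable fun q : ℕ => q.unpair.2 := (Primrec.snd.comp Primrec.unpair).to_comp
  have hpair : Tot {charFun {n | B n = true}}
      fun q : ℕ => Nat.pair q.unpair.1 (encode (pre B q.unpair.2)) :=
    (Tot.of_computable hu1).pair (hP.comp (Tot.of_computable hu2))
  have hc1 : Computable fun q : ℕ => q.unpair.1 + 1 - (f (dec q.unpair.2)).length :=
    Primrec.nat_sub.to_comp.comp (Computable.succ.comp hu1)
      (Primrec.list_length.to_comp.comp (hfd.comp hu2))
  have hc2 : Computable fun q : ℕ => cond ((f (dec q.unpair.2)).getD q.unpair.1 false) 1 0 :=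
    Computable.cond ((Primrec.list_getD false).to_comp.comp (hfd.comp hu2) hu1)
      (Computable.const 1) (Computable.const 0)
  have ht := (Tot.of_computable hc1).comp hpair
  have hex : ∀ a : ℕ, ∃ k, (fun q : ℕ => (Nat.pair q.unpair.1 (encode (pre B q.unpair.2))).unpair.1
      + 1 - (f (dec (Nat.pair q.unpair.1 (encode (pre B q.unpair.2))).unpair.2)).length)
      (Nat.pair a k) = 0 := by
    intro a
    obtain ⟨k, hk⟩ := (tendsto_atTop.1 hm (a + 1)).exists
    refine ⟨k, ?_⟩
    simp only [Nat.unpair_pair, dec_encode, hlim, length_pre]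
    omega
  have hout := ((Tot.of_computable hc2).comp hpair).comp
    ((Tot.of_computable Computable.id).pair (ht.find hex))
  refine RecursiveIn.iff_nat.2 ?_
  rw [charFun_eq A]
  refine hout.of_eq fun a => ?_
  have hs := Nat.find_spec (hex a)
  simp only [Nat.unpair_pair, dec_encode, hlim, length_pre, id] at hs ⊢
  rw [getD_pre (by omega), bit]

end Crest.Agent.R292
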