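import Crest.Agent.R292.Basic

/-! Row 292: a non-meagre set of oracles does not help. -/

set_option autoImplicit false

namespace Crest.Agent.R292

open Filter Set

namespace Rem

/-- the string coded by the length of `s` -/
def str (s : List Bool) : List Bool := (Encodable.decode s.length).getD []

lemma computable_str : Computable str :=
  (Computable.decode.comp Computable.list_length).option_getD (Computable.const _)

/-- a non-meagre set is dense in some cylinder -/
lemma exists_dense {T : Set X} (hT : ¬ IsMeagre T) :
    ∃ a₀ k₀, ∀ a ∈ cyl a₀ k₀, ∀ l, ∃ b ∈ T, b ∈ cyl a l := by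
  have h1 : (interior (closure T)).Nonempty := by
    by_contra h
    exact hT (IsNowhereDense.isMeagre (not_nonempty_iff_eq_empty.1 h))
  obtain ⟨a₀, h0⟩ := h1
  obtain ⟨k₀, hk⟩ := exists_cyl_subset isOpen_interior h0
  refine ⟨a₀, k₀, fun a ha l => ?_⟩
  obtain ⟨b, hb, hb'⟩ := mem_closure_iff.1 (interior_subset (hk ha)) _ (isOpen_cyl a l)
    (self_mem_cyl a l)
  exact ⟨b, hb', hb⟩

end Rem

open Rem

theorem remStmt : RemStmt := by
  intro S B C hS h
  have hcov : S ⊆ ⋃ f ∈ {f : List Bool → List Bool | Computable f}, {a | Lim f (J C a) B} :=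
    fun a ha => by
      obtain ⟨f, hf, hl⟩ := h a ha
      exact mem_biUnion hf hl
  obtain ⟨f, hf, hT⟩ : ∃ f : List Bool → List Bool, Computable f ∧
      ¬ IsMeagre {a | Lim f (J C a) B} := by
    by_contra hc
    push Not at hc
    refine hS (IsMeagre.mono hcov ?_)
    rw [← sUnion_image]
    rw [IsMeagre, compl_sUnion]
    refine (countable_sInter_mem ((countable_machines.image _).image _)).2 ?_
    rintro _ ⟨_, ⟨g, hg, rfl⟩, rfl⟩
    exact hc g hg
  obtain ⟨a₀, k₀, hd⟩ := exists_dense hT
  refine (ule_of_opt (A := fun _ : Unit => B) (B := fun _ => C)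
    (fun s n => cond (decide ((str s).take k₀ = pre a₀ k₀) && decide ((str s).length ≤ s.length))
      ((f (jl (s.take (str s).length) (str s)))[n]?) none) ?_ ?_ ?_).le ()
  · have c1 : Computable fun p : List Bool × ℕ => str p.1 := computable_str.comp Computable.fst
    refine Computable.cond ((Primrec.dom_bool₂ and).to_comp.comp
      (Primrec.eq.decide.to_comp.comp
        (Primrec.list_take.to_comp.comp (Computable.const k₀) c1) (Computable.const _))
      (Primrec.nat_le.decide.to_comp.comp (Computable.list_length.comp c1)
        (Computable.list_length.comp Computable.fst))) ?_ (Computable.const _)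
    exact Computable.list_getElem?.comp (hf.comp (primrec_jl.to_comp.comp
      (Primrec.list_take.to_comp.comp (Computable.list_length.comp c1) Computable.fst) c1))
      Computable.snd
  · intro _ k n v hv
    generalize str (pre C k) = t at hv
    by_cases h1 : t.take k₀ = pre a₀ k₀ ∧ t.length ≤ k
    · simp only [length_pre, h1.1, h1.2, decide_true, Bool.and_self, cond_true] at hv
      have hk : k₀ ≤ t.length := by
        have := congrArg List.length h1.1
        rw [List.length_take, length_pre] at this
        omega
      have ht : (fun i => t.getD i false) ∈ cyl a₀ k₀ := by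
        rw [mem_cyl_iff_pre, ← h1.1, ← min_eq_left hk, ← take_pre, pre_getD, min_eq_left hk]
      obtain ⟨b, ⟨m, -, hm⟩, hb⟩ := hd _ ht t.length
      rw [mem_cyl_iff_pre, pre_getD] at hb
      rw [take_pre, min_eq_left h1.2] at hv
      conv_lhs at hv => rw [← hb]
      rw [length_pre, jl_pre, hm, getElem?_pre] at hv
      split_ifs at hv
      exact (Option.some.inj hv).symm
    · have h2 : (decide (t.take k₀ = pre a₀ k₀) && decide (t.length ≤ (pre C k).length)) = false := by
        rw [length_pre, ← Bool.decide_and]
        exact decide_eq_false h1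
      rw [h2] at hv
      exact absurd hv (by simp)
  · intro _ n
    obtain ⟨b, ⟨m, hm, hm'⟩, hb⟩ := hd a₀ (self_mem_cyl _ _) k₀
    obtain ⟨K, hK⟩ := eventually_atTop.1 (hm.eventually_gt_atTop n)
    let l := max K k₀
    refine ⟨Encodable.encode (pre b l), ?_⟩
    have h1 : str (pre C (Encodable.encode (pre b l))) = pre b l := by
      simp [str]
    have h2 : l ≤ Encodable.encode (pre b l) := by
      simpa using Encodable.length_le_encode (pre b l)
    have h3 : k₀ ≤ l := le_max_right _ _
    have h4 : K ≤ l := le_max_left _ _
    rw [h1, take_pre, min_eq_left h3, mem_cyl_iff_pre.1 hb]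
    simp only [length_pre, h2, decide_true, Bool.and_self, cond_true]
    rw [take_pre, min_eq_left h2, jl_pre, hm', getElem?_pre_of_lt (hK _ (by omega))]
    rfl

end Crest.Agent.R292
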