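import Crest.Agent.R292.Basic

/-! Row 292: one bit of a translation is read off finitely many bits of a Borel function. -/

set_option autoImplicit false

namespace Crest.Agent.R292

open Filter Set

namespace Test

/-- A measurable function is continuous on a residual set. -/
lemma exists_cont {F : X → X} (hF : Measurable F) :
    ∃ C ∈ residual X, ∀ x ∈ C, ∀ n, ∃ k, ∀ x' ∈ C, x' ∈ cyl x k → F x' n = F x n := by
  have h1 : ∀ (q : ℕ × Bool), ∃ O : Set X, IsOpen O ∧ {x | F x q.1 = q.2} =ᶠ[residual X] O := by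
    intro q
    have hm : MeasurableSet {x | F x q.1 = q.2} :=
      ((measurable_pi_apply q.1).comp hF) (MeasurableSet.singleton q.2)
    exact hm.residualEq_isOpen
  choose O hO hOe using h1
  refine ⟨{x | ∀ q : ℕ × Bool, F x q.1 = q.2 ↔ x ∈ O q}, ?_, ?_⟩
  · have : ∀ᶠ x in residual X, ∀ q : ℕ × Bool, F x q.1 = q.2 ↔ x ∈ O q :=
      eventually_countable_forall.2 fun q => (hOe q).mem_iff
    exact this
  · intro x hx n
    obtain ⟨k, hk⟩ := exists_cyl_subset (hO (n, F x n)) ((hx (n, F x n)).1 rfl)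
    exact ⟨k, fun x' hx' hc => (hx' (n, F x n)).2 (hk hc)⟩

lemma exists_mem_cyl {C : Set X} (hC : C ∈ residual X) (x : X) (k : ℕ) : ∃ z ∈ C, z ∈ cyl x k := by
  obtain ⟨z, hz1, hz2⟩ := (dense_of_mem_residual hC).exists_mem_open (isOpen_cyl x k)
    ⟨x, self_mem_cyl x k⟩
  exact ⟨z, hz1, hz2⟩

/-- Bit `n` of `F` is `v` on the cylinder. -/
def good (F : X → X) (C : Set X) (x : X) (k n : ℕ) (v : Bool) : Prop :=
  ∀ x' ∈ C, x' ∈ cyl x k → F x' n = v

lemma good.sub {F : X → X} {C : Set X} {x y : X} {k l n : ℕ} {v : Bool} (h : good F C x k n v)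
    (hy : y ∈ cyl x k) (hl : k ≤ l) : good F C y l n v :=
  fun x' hx' hc => h x' hx' (cyl_subset hy hl hc)

/-- The translation `h` is detected. -/
def sep (F : X → X) (C : Set X) (u : X) (k : ℕ) (h : X) : Prop :=
  ∃ x ∈ cyl u k, ∃ (k' n : ℕ) (v : Bool), k ≤ k' ∧ good F C x k' n v ∧ good F C (xr x h) k' n (!v)

section

variable {F : X → X} {C : Set X} {u : X} {k : ℕ}

lemma sep_xr (hC : C ∈ residual X)
    (hc : ∀ x ∈ C, ∀ n, ∃ k, ∀ x' ∈ C, x' ∈ cyl x k → F x' n = F x n) {h h' : X}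
    (hh : ∀ i < k, h i = false) (hs : sep F C u k (xr h h')) : sep F C u k h ∨ sep F C u k h' := by
  obtain ⟨x, hx, k', n, v, hk, g1, g2⟩ := hs
  obtain ⟨z, hzC, hz⟩ := exists_mem_cyl hC (xr x h) k'
  obtain ⟨k1, hk1⟩ := hc z hzC n
  have g3 : good F C z (max k' k1) n (F z n) :=
    good.sub (x := z) (k := k1) hk1 (self_mem_cyl _ _) (le_max_right _ _)
  by_cases hv : F z n = v
  · refine Or.inr ⟨z, fun i hi => ?_, max k' k1, n, v, hk.trans (le_max_left _ _), hv ▸ g3,
      g2.sub (fun i hi => ?_) (le_max_left _ _)⟩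
    · rw [hz i (lt_of_lt_of_le hi hk), xr_apply, hh i hi, hx i hi, Bool.xor_false]
    · rw [xr_apply, hz i hi, xr_apply, xr_apply, xr_apply, Bool.xor_assoc]
  · have hv' : F z n = !v := by
      revert hv
      cases F z n <;> cases v <;> simp
    have hm : xr z h ∈ cyl x k' := fun i hi => by
      rw [xr_apply, hz i hi, xr_apply]
      simp
    refine Or.inl ⟨xr z h, cyl_subset hx hk hm, max k' k1, n, v, hk.trans (le_max_left _ _),
      g1.sub hm (le_max_left _ _), ?_⟩
    rw [xr_xr_cancel, ← hv']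
    exact g3

lemma not_sep_zero (hC : C ∈ residual X) : ¬ sep F C u k fun _ => false := by
  rintro ⟨x, -, k', n, v, -, g1, g2⟩
  obtain ⟨z, hzC, hz⟩ := exists_mem_cyl hC x k'
  have e1 := g1 z hzC hz
  have e2 := g2 z hzC fun i hi => by rw [hz i hi, xr_apply, Bool.xor_false]
  rw [e1] at e2
  cases v <;> simp at e2

lemma exists_level (hC : C ∈ residual X)
    (hc : ∀ x ∈ C, ∀ n, ∃ k, ∀ x' ∈ C, x' ∈ cyl x k → F x' n = F x n)
    (hn : ∀ c : X, ¬ ∀ᶠ x' in residual X, x' ∈ cyl u (k + 1) → F x' = c) :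
    ∃ j, k < j ∧ ∀ h : X, (∀ i < j, h i = false) → h j = true → sep F C u k h := by
  by_contra hcon
  push Not at hcon
  have approx : ∀ h : X, (∀ i < k + 1, h i = false) → ∀ m, ∃ g : X, (∀ i < k + 1, g i = false) ∧
      ¬ sep F C u k g ∧ ∀ i < m, g i = h i := by
    intro h hh m
    induction m with
    | zero => exact ⟨fun _ => false, fun _ _ => rfl, not_sep_zero hC, fun i hi => absurd hi (by omega)⟩
    | succ m ih =>
      obtain ⟨g, g0, g1, g2⟩ := ih
      by_cases hm : g m = h m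
      · refine ⟨g, g0, g1, fun i hi => ?_⟩
        rcases Nat.lt_succ_iff_lt_or_eq.1 hi with h1 | rfl
        · exact g2 i h1
        · exact hm
      · have hkm : k < m := by
          by_contra h1
          exact hm ((g0 m (by omega)).trans (hh m (by omega)).symm)
        obtain ⟨e, e0, e1, e2⟩ := hcon m hkm
        refine ⟨xr g e, fun i hi => ?_, fun hs => ?_, fun i hi => ?_⟩
        · rw [xr_apply, g0 i hi, e0 i (by omega)]
          rfl
        · rcases sep_xr hC hc (fun i hi => g0 i (by omega)) hs with h1 | h1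
          · exact g1 h1
          · exact e2 h1
        · rcases Nat.lt_succ_iff_lt_or_eq.1 hi with h1 | rfl
          · rw [xr_apply, e0 i h1, g2 i h1, Bool.xor_false]
          · rw [xr_apply, e1]
            revert hm
            cases g i <;> cases h i <;> simp
  have none : ∀ h : X, (∀ i < k + 1, h i = false) → ¬ sep F C u k h := by
    rintro h hh ⟨x, hx, k', n, v, hk, g1, g2⟩
    obtain ⟨g, -, s1, s2⟩ := approx h hh k'
    exact s1 ⟨x, hx, k', n, v, hk, g1,
      g2.sub (fun i hi => by rw [xr_apply, xr_apply, s2 i hi]) le_rfl⟩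
  obtain ⟨x0, hx0C, hx0⟩ := exists_mem_cyl hC u (k + 1)
  refine hn (F x0) (Filter.mem_of_superset hC fun x' hx'C hx' => funext fun n => ?_)
  by_contra hne
  obtain ⟨k1, hk1⟩ := hc x0 hx0C n
  obtain ⟨k2, hk2⟩ := hc x' hx'C n
  refine none (xr x0 x') (fun i hi => ?_) ⟨x0, cyl_mono u (Nat.le_succ k) hx0, max k (max k1 k2), n,
    F x0 n, le_max_left _ _, good.sub (x := x0) (k := k1) hk1 (self_mem_cyl _ _) (by omega), ?_⟩
  · rw [xr_apply, hx0 i hi, hx' i hi, Bool.xor_self]
  · have e : (!F x0 n) = F x' n := by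
      revert hne
      cases F x0 n <;> cases F x' n <;> simp
    rw [xr_xr_cancel_left, e]
    exact good.sub (x := x') (k := k2) hk2 (self_mem_cyl _ _) (by omega)

lemma exists_uniform {j : ℕ}
    (hj : ∀ h : X, (∀ i < j, h i = false) → h j = true → sep F C u k h) :
    ∃ l, k ≤ l ∧ ∀ h : X, (∀ i < j, h i = false) → h j = true →
      ∃ x ∈ cyl u k, ∃ n < l, ∃ v : Bool, good F C x l n v ∧ good F C (xr x h) l n (!v) := by
  let O : ℕ → Set X := fun l =>
    {h | ∃ x ∈ cyl u k, ∃ n < l, ∃ v : Bool, good F C x l n v ∧ good F C (xr x h) l n (!v)}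
  have hmono : Monotone O := by
    rintro l l' hl h ⟨x, hx, n, hn, v, g1, g2⟩
    exact ⟨x, hx, n, lt_of_lt_of_le hn hl, v, g1.sub (self_mem_cyl _ _) hl,
      g2.sub (self_mem_cyl _ _) hl⟩
  have hopen : ∀ l, IsOpen (O l) := by
    intro l
    rw [isOpen_iff_forall_mem_open]
    rintro h ⟨x, hx, n, hn, v, g1, g2⟩
    exact ⟨cyl h l, fun h' hh' => ⟨x, hx, n, hn, v, g1,
      g2.sub (fun i hi => by rw [xr_apply, xr_apply, hh' i hi]) le_rfl⟩, isOpen_cyl h l,
      self_mem_cyl h l⟩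
  let K : Set X := {h | (∀ i < j, h i = false) ∧ h j = true}
  have hK : IsClosed K := by
    have : K = (⋂ i, ⋂ _ : i < j, (fun h : X => h i) ⁻¹' {false}) ∩ (fun h : X => h j) ⁻¹' {true} := by
      ext h
      simp [K]
    rw [this]
    exact (isClosed_iInter fun i => isClosed_iInter fun _ =>
      (isClosed_discrete _).preimage (continuous_apply i)).inter
      ((isClosed_discrete _).preimage (continuous_apply j))
  have hcov : K ⊆ ⋃ l, O l := by
    intro h hh
    obtain ⟨x, hx, k', n, v, -, g1, g2⟩ := hj h hh.1 hh.2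
    exact mem_iUnion.2 ⟨max k' (n + 1), x, hx, n, by omega, v,
      g1.sub (self_mem_cyl _ _) (le_max_left _ _), g2.sub (self_mem_cyl _ _) (le_max_left _ _)⟩
  obtain ⟨l, hl⟩ := hK.isCompact.elim_directed_cover O hopen hcov hmono.directed_le
  exact ⟨max k l, le_max_left _ _, fun h h1 h2 => hmono (le_max_right k l) (hl ⟨h1, h2⟩)⟩

end

end Test

open Test in
theorem testStmt : TestStmt := by
  intro F u k hF hn
  obtain ⟨C, hC, hc⟩ := exists_cont hF
  obtain ⟨j, hkj, hj⟩ := exists_level (u := u) (k := k) hC hc (hn u (self_mem_cyl u k) (k + 1))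
  obtain ⟨l, hkl, hl⟩ := exists_uniform hj
  refine ⟨j, l, l, C, hkj, hkl, hC, fun W hW h h' h0 h0' hw => ?_⟩
  by_contra hne
  obtain ⟨x, hx, n, hn, v, g1, g2⟩ := hl (xr h h')
    (fun i hi => by rw [xr_apply, h0 i hi, h0' i hi]; rfl)
    (by
      rw [xr_apply]
      revert hne
      cases h j <;> cases h' j <;> simp)
  obtain ⟨w, hwW, hw'⟩ := hW (xr x h) fun i hi => by
    rw [xr_apply, h0 i (by omega), hx i hi, Bool.xor_false]
  obtain ⟨c1, c2, e⟩ := hw w hwW
  have e1 := g1 _ c1 fun i hi => by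
    rw [xr_apply, hw' i hi, xr_apply]
    simp
  have e2 := g2 _ c2 fun i hi => by
    rw [xr_apply, hw' i hi, xr_apply, xr_apply, xr_apply, Bool.xor_assoc]
  rw [← pre_eq_iff.1 e n hn, e1] at e2
  cases v <;> simp at e2

end Crest.Agent.R292
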